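import Vale.Agent.Lib.P037B.RectRem
import Vale.Agent.Lib.P037L.BridgeL
import Vale.Agent.Lib.P037.Symm

/-!
# P037: from the alternating `k × 2` patterns to all patterns `xor (r i) (s j)` with `s` a threshold
-/

namespace Vale.Agent.Lib.P037X
open Vale.Agent.Lib.P037 Vale.Agent.Lib.P037B Vale.Agent.Lib.P037L

/-- number of changes of `f` before `j`. -/
def runCnt (f : ℕ → Bool) : ℕ → ℕ
  | 0 => 0
  | j + 1 => runCnt f j + (if f j = f (j + 1) then 0 else 1)

theorem runCnt_mono (f : ℕ → Bool) : Monotone (runCnt f) :=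
  monotone_nat_of_le_succ fun j => by
    show runCnt f j ≤ runCnt f j + _
    exact Nat.le_add_right _ _

theorem runCnt_parity (f : ℕ → Bool) (j : ℕ) :
    f j = xor (f 0) (decide (runCnt f j % 2 = 1)) := by
  induction j with
  | zero => simp [runCnt]
  | succ j ih =>
    have hstep : runCnt f (j + 1) = runCnt f j + (if f j = f (j + 1) then 0 else 1) := rfl
    by_cases h : f j = f (j + 1)
    · rw [hstep, if_pos h, Nat.add_zero, ← h]
      exact ih
    · rw [hstep, if_neg h]
      have hne : f (j + 1) = !(f j) := by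
        cases h1 : f j <;> cases h2 : f (j + 1) <;> simp_all
      rw [hne, ih]
      rcases Nat.mod_two_eq_zero_or_one (runCnt f j) with h0 | h0
      · have h1 : (runCnt f j + 1) % 2 = 1 := by omega
        rw [h0, h1]
        cases f 0 <;> simp
      · have h1 : (runCnt f j + 1) % 2 = 0 := by omega
        rw [h0, h1]
        cases f 0 <;> simp

theorem runCnt_surj (f : ℕ → Bool) (j t : ℕ) (ht : t ≤ runCnt f j) :
    ∃ j', j' ≤ j ∧ runCnt f j' = t := by
  induction j with
  | zero =>
    refine ⟨0, le_rfl, ?_⟩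
    have : runCnt f 0 = 0 := rfl
    omega
  | succ j ih =>
    have hstep : runCnt f (j + 1) = runCnt f j + (if f j = f (j + 1) then 0 else 1) := rfl
    by_cases h : t ≤ runCnt f j
    · obtain ⟨j', h1, h2⟩ := ih h
      exact ⟨j', by omega, h2⟩
    · refine ⟨j + 1, le_rfl, ?_⟩
      have : (if f j = f (j + 1) then 0 else 1) ≤ 1 := by split_ifs <;> omega
      omega

/-- the run decomposition of a word. -/
theorem exists_runs {K : ℕ} (hK : 0 < K) (r : Fin K → Bool) :
    ∃ (k : ℕ) (ρ : Fin K → Fin k), 1 ≤ k ∧ Monotone ρ ∧ Function.Surjective ρ ∧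
      ∀ i, r i = xor (r ⟨0, hK⟩) (decide ((ρ i).val % 2 = 1)) := by
  set f : ℕ → Bool := fun j => if h : j < K then r ⟨j, h⟩ else false with hf
  have hfi : ∀ i : Fin K, f i.val = r i := by
    intro i
    simp [hf, i.isLt]
  have hf0 : f 0 = r ⟨0, hK⟩ := by simp [hf, hK]
  refine ⟨runCnt f (K - 1) + 1,
    fun i => ⟨runCnt f i.val, Nat.lt_succ_of_le (runCnt_mono f (by have := i.isLt; omega))⟩,
    by omega, ?_, ?_, ?_⟩
  · intro i j hij
    exact runCnt_mono f hij
  · intro t
    obtain ⟨j', h1, h2⟩ := runCnt_surj f (K - 1) t.val (Nat.le_of_lt_succ t.isLt)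
    exact ⟨⟨j', by omega⟩, Fin.ext h2⟩
  · intro i
    rw [← hfi i, ← hf0]
    exact runCnt_parity f i.val

/-- threshold map onto `Fin 2`. -/
def thr (K b : ℕ) : Fin K → Fin 2 := fun j => if j.val < b then 0 else 1

theorem thr_mono (K b : ℕ) : Monotone (thr K b) := by
  intro i j hij
  have hij' : i.val ≤ j.val := hij
  unfold thr
  split_ifs with h1 h2 h2
  · exact le_rfl
  · exact Fin.zero_le _
  · omega
  · exact le_rfl

theorem thr_surj (K b : ℕ) (hb0 : 0 < b) (hbK : b < K) : Function.Surjective (thr K b) := by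
  intro t
  fin_cases t
  · exact ⟨⟨0, by omega⟩, by simp [thr, hb0]⟩
  · exact ⟨⟨b, hbK⟩, by simp [thr]⟩

theorem thr_val (K b : ℕ) (j : Fin K) : decide ((thr K b j).val = 1) = decide (b ≤ j.val) := by
  unfold thr
  by_cases h : j.val < b
  · rw [if_pos h]
    have : ¬ b ≤ j.val := by omega
    simp [this]
  · rw [if_neg h]
    have : b ≤ j.val := by omega
    simp [this]

/-- ASSEMBLY: all patterns `xor (r i) (b ≤ j)`. -/
theorem polyRemoval_xor (X : ∀ k : ℕ, Matrix (Fin k) (Fin 2) Bool)
    (hXdef : ∀ (k : ℕ) (i : Fin k) (j : Fin 2),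
      X k i j = xor (decide (i.val % 2 = 0)) (decide (j.val = 1)))
    (hX : ∀ k, 2 ≤ k → RectRemoval (X k))
    (K : ℕ) (r : Fin K → Bool) (b : ℕ) (hb0 : 0 < b) (hbK : b < K) :
    PolyRemoval (Matrix.of fun (i j : Fin K) => xor (r i) (decide (b ≤ j.val))) := by
  have hK : 0 < K := by omega
  obtain ⟨k, ρ, hk1, hρ, hρs, hr⟩ := exists_runs hK r
  have hγ := thr_mono K b
  have hγs := thr_surj K b hb0 hbK
  by_cases hk : 2 ≤ k
  · have base := polyRemoval_of_rect (X k) (hX k hk) ρ (thr K b) hρ hρs hγ hγs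
    cases h0 : r ⟨0, hK⟩
    · have e : (Matrix.of fun (i j : Fin K) => xor (r i) (decide (b ≤ j.val)))
          = ((X k).submatrix ρ (thr K b)).map not := by
        ext i j
        simp only [Matrix.of_apply, Matrix.map_apply, Matrix.submatrix_apply]
        rw [hXdef, thr_val, hr i, h0]
        rcases Nat.mod_two_eq_zero_or_one (ρ i).val with h | h
        · rw [h]; cases decide (b ≤ j.val) <;> simp
        · rw [h]; cases decide (b ≤ j.val) <;> simp
      rw [e]
      exact polyRemoval_map_not _ base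
    · have e : (Matrix.of fun (i j : Fin K) => xor (r i) (decide (b ≤ j.val)))
          = (X k).submatrix ρ (thr K b) := by
        ext i j
        simp only [Matrix.of_apply, Matrix.submatrix_apply]
        rw [hXdef, thr_val, hr i, h0]
        rcases Nat.mod_two_eq_zero_or_one (ρ i).val with h | h
        · rw [h]; cases decide (b ≤ j.val) <;> simp
        · rw [h]; cases decide (b ≤ j.val) <;> simp
      rw [e]
      exact base
  · have hk' : k = 1 := by omega
    subst hk'
    set P : Matrix (Fin 2) (Fin 2) Bool :=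
      Matrix.of fun (_ j : Fin 2) => xor (r ⟨0, hK⟩) (decide (j.val = 1)) with hP
    have e : (Matrix.of fun (i j : Fin K) => xor (r i) (decide (b ≤ j.val)))
        = P.submatrix (thr K b) (thr K b) := by
      ext i j
      simp only [Matrix.of_apply, Matrix.submatrix_apply, hP]
      rw [thr_val, hr i]
      have : (ρ i).val = 0 := by have := (ρ i).isLt; omega
      rw [this]
      simp
    rw [e]
    exact polyRemoval_blowup P _ _ hγ hγs hγ hγs (polyRemoval_two P)

/-- the transposed family. -/
theorem polyRemoval_xor_tr (X : ∀ k : ℕ, Matrix (Fin k) (Fin 2) Bool)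
    (hXdef : ∀ (k : ℕ) (i : Fin k) (j : Fin 2),
      X k i j = xor (decide (i.val % 2 = 0)) (decide (j.val = 1)))
    (hX : ∀ k, 2 ≤ k → RectRemoval (X k))
    (K : ℕ) (r : Fin K → Bool) (b : ℕ) (hb0 : 0 < b) (hbK : b < K) :
    PolyRemoval (Matrix.of fun (i j : Fin K) => xor (decide (b ≤ i.val)) (r j)) := by
  have h := polyRemoval_transpose _ (polyRemoval_xor X hXdef hX K r b hb0 hbK)
  have e : (Matrix.of fun (i j : Fin K) => xor (decide (b ≤ i.val)) (r j))
      = (Matrix.of fun (i j : Fin K) => xor (r i) (decide (b ≤ j.val))).transpose := by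
    ext i j
    simp only [Matrix.of_apply, Matrix.transpose_apply]
    exact Bool.xor_comm _ _
  rw [e]
  exact h

end Vale.Agent.Lib.P037X
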