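import Vale.Agent.Lib.P037X.CoreX
import Vale.Agent.Lib.P037X.XorAssemble
import Vale.Agent.Lib.P037.Bridge

/-!
# P037: bridge from the core theorem on the alternating patterns `X_k` to the official notions
-/

namespace Vale.Agent.Lib.P037X
open Finset
open Vale.Agent.Lib.P037 Vale.Agent.Lib.P037B
variable {n : ℕ}

/-- the alternating `k × 2` pattern with rows `10, 01, 10, …`. -/
def patX (k : ℕ) : Matrix (Fin k) (Fin 2) Bool := fun i j => if j = 0 then sy i else !sy i

theorem patX_eq (k : ℕ) (i : Fin k) (j : Fin 2) :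
    patX k i j = xor (decide (i.val % 2 = 0)) (decide (j.val = 1)) := by
  unfold patX sy
  fin_cases j
  · simp
  · simp

theorem cntX_le_cntR (A : Matrix (Fin n) (Fin n) Bool) (k : ℕ) :
    cntX (fun i j => A i j) k ≤ cntR (patX k) A := by
  classical
  unfold cntX cntR Kp
  have e1 : (∑ c : Fin n, ∑ d : Fin n,
      if c < d then #{r : Fin k → Fin n | IsAlt (fun i j => A i j) k r c d} else 0)
      = ∑ p : Fin n × Fin n,
        #(if p.1 < p.2 then
            (univ.filter fun r : Fin k → Fin n => IsAlt (fun i j => A i j) k r p.1 p.2)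
          else (∅ : Finset (Fin k → Fin n))) := by
    rw [Fintype.sum_prod_type]
    refine Finset.sum_congr rfl fun c _ => Finset.sum_congr rfl fun d _ => ?_
    split_ifs
    · rfl
    · simp
  rw [e1, ← Finset.card_sigma]
  apply Finset.card_le_card_of_injOn
    (fun x : (Σ _ : Fin n × Fin n, (Fin k → Fin n)) => (x.2, ![x.1.1, x.1.2]))
  · intro x hx
    rw [Finset.mem_coe, Finset.mem_sigma] at hx
    obtain ⟨-, hx⟩ := hx
    by_cases hlt : x.1.1 < x.1.2
    · rw [if_pos hlt, Finset.mem_filter] at hx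
      obtain ⟨-, hr, hs⟩ := hx
      rw [Finset.mem_coe, Finset.mem_filter]
      refine ⟨Finset.mem_univ _, hr, ?_, ?_⟩
      · rw [strictMono_two]
        exact hlt
      · intro i j
        fin_cases j
        · exact (hs i).1
        · exact (hs i).2
    · rw [if_neg hlt] at hx
      exact absurd hx (Finset.notMem_empty _)
  · intro x _ y _ hxy
    have h1 : x.2 = y.2 := (Prod.ext_iff.1 hxy).1
    have h2 : (![x.1.1, x.1.2] : Fin 2 → Fin n) = ![y.1.1, y.1.2] := (Prod.ext_iff.1 hxy).2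
    have h3 : x.1.1 = y.1.1 := congrFun h2 0
    have h4 : x.1.2 = y.1.2 := congrFun h2 1
    obtain ⟨⟨a, b⟩, r⟩ := x
    obtain ⟨⟨a', b'⟩, r'⟩ := y
    simp only at h1 h3 h4
    subst h1 h3 h4
    rfl

theorem cntR_patX_eq_zero (B : Fin n → Fin n → Bool) (k : ℕ) (hB : XFree B k) :
    cntR (patX k) (Matrix.of B) = 0 := by
  rw [cntR_eq_zero_iff]
  rintro r c ⟨hr, hc, h⟩
  refine hB r (c 0) (c 1) (hc (by decide)) ⟨hr, fun i => ⟨?_, ?_⟩⟩
  · exact h i 0
  · exact h i 1

theorem rectRemoval_patX (k : ℕ) (hk : 2 ≤ k) : RectRemoval (patX k) := by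
  obtain ⟨c, C, hc, hC, h⟩ := coreX k hk
  refine ⟨c, C, hc, hC, ?_⟩
  intro n hn ε hε hε1 A hA
  have hle : (cntX (fun i j => A i j) k : ℝ) ≤ (cntR (patX k) A : ℝ) := by
    exact_mod_cast cntX_le_cntR A k
  obtain ⟨B, hB, hd'⟩ := h n hn (fun i j => A i j) ε hε hε1 (lt_of_le_of_lt hle hA)
  refine ⟨Matrix.of B, cntR_patX_eq_zero B k hB, ?_⟩
  rw [numDiff_eq_hd]
  exact hd'.le

/-- all blow-ups of the alternating patterns. -/
theorem polyRemoval_patX_blowup (k : ℕ) (hk : 2 ≤ k) (K : ℕ) (ρ : Fin K → Fin k)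
    (γ : Fin K → Fin 2) (hρ : Monotone ρ) (hρs : Function.Surjective ρ) (hγ : Monotone γ)
    (hγs : Function.Surjective γ) : PolyRemoval ((patX k).submatrix ρ γ) :=
  polyRemoval_of_rect (patX k) (rectRemoval_patX k hk) ρ γ hρ hρs hγ hγs

/-- every pattern `xor (r i) (b ≤ j)`: arbitrary row word, two column blocks. -/
theorem polyRemoval_xor_rows (K : ℕ) (r : Fin K → Bool) (b : ℕ) (hb0 : 0 < b) (hbK : b < K) :
    PolyRemoval (Matrix.of fun (i j : Fin K) => xor (r i) (decide (b ≤ j.val))) :=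
  polyRemoval_xor patX patX_eq rectRemoval_patX K r b hb0 hbK

/-- every pattern `xor (b ≤ i) (r j)`: two row blocks, arbitrary column word. -/
theorem polyRemoval_xor_cols (K : ℕ) (r : Fin K → Bool) (b : ℕ) (hb0 : 0 < b) (hbK : b < K) :
    PolyRemoval (Matrix.of fun (i j : Fin K) => xor (decide (b ≤ i.val)) (r j)) :=
  polyRemoval_xor_tr patX patX_eq rectRemoval_patX K r b hb0 hbK

end Vale.Agent.Lib.P037X
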