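import Vale.Agent.Lib.P037X.XDefs

namespace Vale.Agent.Lib.P037X
open Finset
open Vale.Agent.Lib.P037L (RepOf)
variable {n : ℕ}

/-- whatever the threshold is: `c < τ` puts `c` into `ZX`, otherwise `τ ≤ c < d` puts `d` into it. -/
theorem clean_ZX (A : Fin n → Fin n → Bool) (k κ : ℕ) (Rep : Finset (Fin n))
    (r : Fin k → Fin n) (c d : Fin n) (hcd : c < d) (h : IsAlt A k r c d) (hr : ∀ i, r i ∈ Rep) :
    c ∈ ZX A k κ Rep ∨ d ∈ ZX A k κ Rep := by
  classical
  have hrm : r ∈ Fintype.piFinset fun _ : Fin k => Rep := by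
    rw [Fintype.mem_piFinset]; exact hr
  have hcP : c ∈ PX A k r := by
    simp only [PX, mem_filter, mem_univ, true_and]
    exact fun i => (h.2 i).1
  have hdQ : d ∈ QX A k r := by
    simp only [QX, mem_filter, mem_univ, true_and]
    exact fun i => (h.2 i).2
  rcases Nat.lt_or_ge (c : ℕ) (tauX A k κ r) with hlt | hge
  · left
    unfold ZX
    rw [mem_biUnion]
    refine ⟨r, hrm, ?_⟩
    rw [if_pos h.1, mem_union]
    left
    rw [mem_filter]
    exact ⟨hcP, hlt⟩
  · right
    unfold ZX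
    rw [mem_biUnion]
    refine ⟨r, hrm, ?_⟩
    rw [if_pos h.1, mem_union]
    right
    rw [mem_filter]
    exact ⟨hdQ, hge.trans (Fin.lt_def.1 hcd).le⟩

/-- `card_biUnion_le`, `Fintype.card_piFinset`, and `P037L.one_dim` gives the threshold
(`h.choose_spec`), as in `P037L/Zero.lean`. -/
theorem card_ZX_le (A : Fin n → Fin n → Bool) (k κ : ℕ) (hκ : 1 ≤ κ) (Rep : Finset (Fin n))
    (hg : ∀ r : Fin k → Fin n, (∀ i, r i ∈ Rep) → StrictMono r →
      #{p ∈ PX A k r ×ˢ QX A k r | p.1 < p.2} ≤ κ * κ) :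
    #(ZX A k κ Rep) ≤ #Rep ^ k * (2 * κ) := by
  classical
  unfold ZX
  refine (card_biUnion_le_card_mul _ _ (2 * κ) ?_).trans (le_of_eq ?_)
  · intro r hr
    rw [Fintype.mem_piFinset] at hr
    split_ifs with hm
    · have hex := Vale.Agent.Lib.P037L.one_dim (PX A k r) (QX A k r) κ hκ (hg r hr hm)
      have hτ : tauX A k κ r = hex.choose := by
        unfold tauX
        rw [dif_pos hex]
      have hs := hex.choose_spec
      rw [hτ]
      refine (card_union_le _ _).trans ?_
      have := hs.1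
      have := hs.2
      omega
    · simp
  · rw [Fintype.card_piFinset]
    simp

/-- a tuple in `RepOf ω` is `ω ∘ a`; its term in `PPX` is the set of `hg`. -/
theorem good_of_PPX {M : ℕ} (A : Fin n → Fin n → Bool) (k κ : ℕ) (ω : Fin M → Fin n)
    (h : PPX A k ω ≤ κ * κ) (r : Fin k → Fin n) (hr : ∀ i, r i ∈ RepOf ω) (hm : StrictMono r) :
    #{p ∈ PX A k r ×ˢ QX A k r | p.1 < p.2} ≤ κ * κ := by
  classical
  have hch : ∀ i, ∃ a : Fin M, ω a = r i := by
    intro i
    have := hr i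
    unfold RepOf at this
    rw [mem_image] at this
    obtain ⟨a, _, ha⟩ := this
    exact ⟨a, ha⟩
  choose a ha using hch
  have hra : ω ∘ a = r := funext ha
  refine le_trans ?_ h
  unfold PPX
  refine le_trans ?_ (single_le_sum (f := fun a : Fin k → Fin M =>
    #{p : Fin n × Fin n | p.1 < p.2 ∧ IsAlt A k (ω ∘ a) p.1 p.2}) (fun _ _ => Nat.zero_le _)
    (mem_univ a))
  apply card_le_card
  intro p hp
  rw [mem_filter, mem_product] at hp
  rw [mem_filter]
  refine ⟨mem_univ _, hp.2, ?_⟩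
  rw [hra]
  refine ⟨hm, fun i => ?_⟩
  have h1 := hp.1.1
  have h2 := hp.1.2
  simp only [PX, QX, mem_filter, mem_univ, true_and] at h1 h2
  exact ⟨h1 i, h2 i⟩

end Vale.Agent.Lib.P037X
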