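import Vale.Agent.Lib.P037X.XDefs

namespace Vale.Agent.Lib.P037X
open Finset
variable {n : ℕ}

/-- ROUNDING ALONG A LINEAR ORDER.  `g d` = number of ones of `ρ` strictly before `d` (in `κ`),
`ρ' d = decide (v ≤ g d)`.  Ones lost: at most `v` (`g` is injective on the ones).  Every zero `d`
of `ρ` with `v ≤ g d` is in at least `v` inversions, so there are at most `inv / v` of them. -/
theorem round_key {L : Type*} [LinearOrder L] (κ : Fin n → L) (hκ : Function.Injective κ)
    (ρ : Fin n → Bool) (v : ℕ) (hv : 1 ≤ v) :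
    ∃ ρ' : Fin n → Bool, (∀ c d, κ c < κ d → ρ' c = true → ρ' d = true) ∧
      (#{c : Fin n | ρ c ≠ ρ' c} : ℝ) ≤ v +
        (#{p : Fin n × Fin n | κ p.1 < κ p.2 ∧ ρ p.1 = true ∧ ρ p.2 = false} : ℝ) / v := by
  classical
  set g : Fin n → ℕ := fun d => #{c : Fin n | κ c < κ d ∧ ρ c = true} with hg
  have gmono : ∀ c d, κ c < κ d → g c ≤ g d := by
    intro c d hcd
    apply card_le_card
    intro x hx
    simp only [mem_filter, mem_univ, true_and] at hx ⊢
    exact ⟨hx.1.trans hcd, hx.2⟩
  have gstrict : ∀ c d, κ c < κ d → ρ c = true → g c < g d := by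
    intro c d hcd hc
    apply card_lt_card
    refine ⟨?_, ?_⟩
    · intro x hx
      simp only [mem_filter, mem_univ, true_and] at hx ⊢
      exact ⟨hx.1.trans hcd, hx.2⟩
    · intro hsub
      have : c ∈ ({x : Fin n | κ x < κ c ∧ ρ x = true} : Finset (Fin n)) :=
        hsub (by simp only [mem_filter, mem_univ, true_and]; exact ⟨hcd, hc⟩)
      simp only [mem_filter, mem_univ, true_and] at this
      exact lt_irrefl _ this.1
  refine ⟨fun d => decide (v ≤ g d), ?_, ?_⟩
  · intro c d hcd hc
    simp only [decide_eq_true_eq] at hc ⊢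
    exact hc.trans (gmono c d hcd)
  · set Sa : Finset (Fin n) := {d : Fin n | ρ d = true ∧ g d < v} with hSa
    set Sb : Finset (Fin n) := {d : Fin n | ρ d = false ∧ v ≤ g d} with hSb
    have hsub : ({c : Fin n | ρ c ≠ decide (v ≤ g c)} : Finset (Fin n)) ⊆ Sa ∪ Sb := by
      intro c hc
      simp only [mem_filter, mem_univ, true_and] at hc
      simp only [hSa, hSb, mem_union, mem_filter, mem_univ, true_and]
      by_cases h1 : v ≤ g c
      · right
        simp only [h1, decide_true] at hc
        exact ⟨by simpa using hc, h1⟩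
      · left
        simp only [h1, decide_false] at hc
        exact ⟨by simpa using hc, by omega⟩
    have ha : #Sa ≤ v := by
      have : #Sa ≤ #(range v) := by
        apply card_le_card_of_injOn g
        · intro d hd
          simp only [hSa, coe_filter, mem_univ, true_and, Set.mem_ofPred_eq] at hd
          simp only [coe_range, Set.mem_Iio]
          exact hd.2
        · intro d hd d' hd' hdd
          simp only [hSa, coe_filter, mem_univ, true_and, Set.mem_ofPred_eq] at hd hd'
          by_contra hne
          rcases lt_or_gt_of_ne (fun h => hne (hκ h)) with h | h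
          · exact absurd hdd (ne_of_lt (gstrict d d' h hd.1))
          · exact absurd hdd.symm (ne_of_lt (gstrict d' d h hd'.1))
      simpa using this
    have hb : #Sb * v ≤ #{p : Fin n × Fin n | κ p.1 < κ p.2 ∧ ρ p.1 = true ∧ ρ p.2 = false} := by
      have e1 : #{p : Fin n × Fin n | κ p.1 < κ p.2 ∧ ρ p.1 = true ∧ ρ p.2 = false}
          = ∑ d : Fin n, ∑ c : Fin n, if κ c < κ d ∧ ρ c = true ∧ ρ d = false then 1 else 0 := by
        rw [card_filter, Fintype.sum_prod_type_right]
      have e2 : #Sb * v = ∑ d : Fin n, if ρ d = false ∧ v ≤ g d then v else 0 := by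
        rw [hSb, card_filter, sum_mul]
        apply sum_congr rfl
        intro d _
        split_ifs <;> simp
      rw [e1, e2]
      apply sum_le_sum
      intro d _
      by_cases hd : ρ d = false ∧ v ≤ g d
      · rw [if_pos hd]
        refine hd.2.trans ?_
        rw [hg]
        simp only
        rw [card_filter]
        apply sum_le_sum
        intro c _
        by_cases hc : κ c < κ d ∧ ρ c = true
        · rw [if_pos hc, if_pos ⟨hc.1, hc.2, hd.1⟩]
        · rw [if_neg hc]; exact Nat.zero_le _
      · rw [if_neg hd]; exact Nat.zero_le _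
    have hv0 : (0 : ℝ) < v := by exact_mod_cast hv
    have h1 : (#{c : Fin n | ρ c ≠ decide (v ≤ g c)} : ℝ) ≤ (#Sa : ℝ) + #Sb := by
      exact_mod_cast (card_le_card hsub).trans (card_union_le _ _)
    have h2 : (#Sb : ℝ) ≤
        (#{p : Fin n × Fin n | κ p.1 < κ p.2 ∧ ρ p.1 = true ∧ ρ p.2 = false} : ℝ) / v := by
      rw [le_div_iff₀ hv0]
      exact_mod_cast hb
    have h3 : (#Sa : ℝ) ≤ v := by exact_mod_cast ha
    linarith

end Vale.Agent.Lib.P037X
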