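import Vale.Agent.Lib.P037X.KeyLemma
import Vale.Agent.Lib.P037X.Round

namespace Vale.Agent.Lib.P037X
open Finset
open Vale.Agent.Lib.P037 (hd)
variable {n : ℕ}

/-- `round_key` with `κ = key A Rep y`, `ρ = A y` for every row; a row of `buildX` differs from `A y` at
most in `Z` and where `R y ≠ A y`.  `hd A B = ∑ y, #{c | A y c ≠ B y c}` (see `P037L/Total.lean`). -/
theorem cost_build (A : Fin n → Fin n → Bool) (Rep Z : Finset (Fin n)) (v : ℕ) (hv : 1 ≤ v) :
    ∃ R : Fin n → Fin n → Bool, (∀ y, Mon A Rep y (R y)) ∧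
      (hd A (buildX A Rep Z R) : ℝ) ≤ n * #Z + n * v + (∑ y, (inv A Rep y : ℝ)) / v := by
  classical
  have h := fun y => round_key (key A Rep y) (key_injective A Rep y) (A y) v hv
  choose R hR1 hR2 using h
  refine ⟨R, fun y => hR1 y, ?_⟩
  have e1 : hd A (buildX A Rep Z R) = ∑ y : Fin n, #{c : Fin n | A y c ≠ buildX A Rep Z R y c} := by
    unfold hd
    rw [card_filter, Fintype.sum_prod_type]
    apply sum_congr rfl
    intro y _
    rw [card_filter]
  have e2 : ∀ y : Fin n, (#{c : Fin n | A y c ≠ buildX A Rep Z R y c} : ℝ)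
      ≤ #Z + (v + (inv A Rep y : ℝ) / v) := by
    intro y
    have hsub : ({c : Fin n | A y c ≠ buildX A Rep Z R y c} : Finset (Fin n))
        ⊆ Z ∪ ({c : Fin n | A y c ≠ R y c} : Finset (Fin n)) := by
      intro c hc
      simp only [mem_filter, mem_univ, true_and] at hc
      simp only [mem_union, mem_filter, mem_univ, true_and]
      by_cases hz : c ∈ Z
      · exact Or.inl hz
      · right
        unfold buildX at hc
        rw [if_neg hz] at hc
        by_cases hy : y ∈ Rep
        · rw [if_pos hy] at hc; exact absurd rfl hc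
        · rw [if_neg hy] at hc; exact hc
    have h1 : (#{c : Fin n | A y c ≠ buildX A Rep Z R y c} : ℝ)
        ≤ (#Z : ℝ) + #{c : Fin n | A y c ≠ R y c} := by
      exact_mod_cast (card_le_card hsub).trans (card_union_le _ _)
    have h2 := hR2 y
    unfold inv
    linarith
  rw [e1]
  push_cast
  calc ∑ y : Fin n, (#{c : Fin n | A y c ≠ buildX A Rep Z R y c} : ℝ)
      ≤ ∑ y : Fin n, ((#Z : ℝ) + (v + (inv A Rep y : ℝ) / v)) := sum_le_sum fun y _ => e2 y
    _ = n * #Z + n * v + (∑ y, (inv A Rep y : ℝ)) / v := by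
        rw [sum_add_distrib, sum_add_distrib, sum_div]
        simp only [sum_const, card_univ, Fintype.card_fin, nsmul_eq_mul]
        ring

end Vale.Agent.Lib.P037X
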