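import Vale.Agent.Lib.P037X.KeyLemma

namespace Vale.Agent.Lib.P037X
open Finset
variable {n : ℕ}

/-- symbol `true`: a monotone row showing `(1,0)` on `c < d` has a sampled row above it showing `(1,0)`
which lies above all sampled rows (above `y`) showing `(0,1)`. -/
theorem pull_true (A : Fin n → Fin n → Bool) (Rep : Finset (Fin n)) (y c d : Fin n) (hcd : c < d)
    (ρ : Fin n → Bool) (hρ : Mon A Rep y ρ) (h1 : ρ c = true) (h2 : ρ d = false) :
    ∃ x ∈ Rep, x < y ∧ Shows A x c d true ∧
      ∀ x' ∈ Rep, x' < y → Shows A x' c d false → x' < x := by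
  have hn : ¬ key A Rep y c < key A Rep y d := by
    intro h
    have := hρ c d h h1
    rw [h2] at this
    exact absurd this (by decide)
  have hne : key A Rep y d ≠ key A Rep y c := by
    intro h
    have := key_injective A Rep y h
    exact absurd this (ne_of_gt hcd)
  have hlt : key A Rep y d < key A Rep y c := lt_of_le_of_ne (not_lt.1 hn) hne
  rcases (key_lt_iff A Rep y d c).1 hlt with ⟨x, hxR, hxy, hd, hc, hall⟩ | ⟨-, hdc⟩
  · refine ⟨x, hxR, hxy, ⟨hc, by simpa using hd⟩, ?_⟩
    intro x' hx'R hx'y hs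
    exact hall x' hx'R hx'y (by simpa using hs.2) hs.1
  · exact absurd hdc (not_lt.2 hcd.le)

/-- symbol `false`: the same, if some sampled row above `y` distinguishes `c` and `d`. -/
theorem pull_false (A : Fin n → Fin n → Bool) (Rep : Finset (Fin n)) (y c d : Fin n) (hcd : c < d)
    (ρ : Fin n → Bool) (hρ : Mon A Rep y ρ) (h1 : ρ c = false) (h2 : ρ d = true)
    (hex : ∃ x ∈ Rep, x < y ∧ A x c ≠ A x d) :
    ∃ x ∈ Rep, x < y ∧ Shows A x c d false ∧
      ∀ x' ∈ Rep, x' < y → Shows A x' c d true → x' < x := by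
  have hn : ¬ key A Rep y d < key A Rep y c := by
    intro h
    have := hρ d c h h2
    rw [h1] at this
    exact absurd this (by decide)
  have hne : key A Rep y c ≠ key A Rep y d := by
    intro h
    have := key_injective A Rep y h
    exact absurd this (ne_of_lt hcd)
  have hlt : key A Rep y c < key A Rep y d := lt_of_le_of_ne (not_lt.1 hn) hne
  rcases (key_lt_iff A Rep y c d).1 hlt with ⟨x, hxR, hxy, hc, hd, hall⟩ | ⟨heq, -⟩
  · refine ⟨x, hxR, hxy, ⟨hc, by simpa using hd⟩, ?_⟩
    intro x' hx'R hx'y hs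
    exact hall x' hx'R hx'y hs.1 (by simpa using hs.2)
  · obtain ⟨x, hxR, hxy, hne'⟩ := hex
    exact absurd (heq x hxR hxy) hne'

theorem sy_succ (i : ℕ) : sy (i + 1) = !sy i := by
  unfold sy
  rcases Nat.mod_two_eq_zero_or_one i with h | h
  · have : (i + 1) % 2 = 1 := by omega
    simp [h, this]
  · have : (i + 1) % 2 = 0 := by omega
    simp [h, this]

/-- EXACTNESS. -/
theorem exact_build (A : Fin n → Fin n → Bool) (k : ℕ) (hk : 2 ≤ k) (Rep Z : Finset (Fin n))
    (R : Fin n → Fin n → Bool) (hR : ∀ y, Mon A Rep y (R y))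
    (hclean : ∀ (r : Fin k → Fin n) (c d : Fin n), c < d → IsAlt A k r c d → (∀ i, r i ∈ Rep) →
      c ∈ Z ∨ d ∈ Z) :
    XFree (buildX A Rep Z R) k := by
  classical
  intro r c d hcd hAlt
  obtain ⟨hmono, hshow⟩ := hAlt
  obtain ⟨k', rfl⟩ : ∃ k', k = k' + 1 := ⟨k - 1, by omega⟩
  have hk' : 1 ≤ k' := by omega
  -- the two columns are not erased
  have hcZ : c ∉ Z := by
    intro h
    have h0 := (hshow ⟨0, by omega⟩).1
    simp [buildX, h, sy] at h0
  have hdZ : d ∉ Z := by
    intro h
    have h0 := (hshow ⟨1, by omega⟩).2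
    simp [buildX, h, sy] at h0
  have hB : ∀ y e, e ∉ Z → buildX A Rep Z R y e = if y ∈ Rep then A y e else R y e := by
    intro y e he
    simp [buildX, he]
  -- the witnesses
  have Etrue : ∀ i : Fin (k' + 1), sy i = true → ∃ x, x ∈ Rep ∧ x ≤ r i ∧ Shows A x c d (sy i) ∧
      (x = r i ∨ ∀ x' ∈ Rep, x' < r i → Shows A x' c d (!sy i) → x' < x) := by
    intro i hi
    have hs := hshow i
    unfold Shows at hs
    rw [hB _ _ hcZ, hB _ _ hdZ] at hs
    by_cases hrep : r i ∈ Rep
    · rw [if_pos hrep, if_pos hrep] at hs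
      exact ⟨r i, hrep, le_refl _, hs, Or.inl rfl⟩
    · rw [if_neg hrep, if_neg hrep, hi] at hs
      obtain ⟨x, hxR, hxy, hsx, hall⟩ := pull_true A Rep (r i) c d hcd (R (r i)) (hR _) hs.1
        (by simpa using hs.2)
      refine ⟨x, hxR, hxy.le, by rw [hi]; exact hsx, Or.inr ?_⟩
      rw [hi]
      exact hall
  have Efalse : ∀ i : Fin (k' + 1), sy i = false → ∃ x, x ∈ Rep ∧ x ≤ r i ∧
      Shows A x c d (sy i) ∧
      (x = r i ∨ ∀ x' ∈ Rep, x' < r i → Shows A x' c d (!sy i) → x' < x) := by
    intro i hi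
    have hs := hshow i
    unfold Shows at hs
    rw [hB _ _ hcZ, hB _ _ hdZ] at hs
    by_cases hrep : r i ∈ Rep
    · rw [if_pos hrep, if_pos hrep] at hs
      exact ⟨r i, hrep, le_refl _, hs, Or.inl rfl⟩
    · rw [if_neg hrep, if_neg hrep, hi] at hs
      -- the previous index
      have hi0 : (i : ℕ) ≠ 0 := by
        intro h0
        rw [h0] at hi
        simp [sy] at hi
      set j : Fin (k' + 1) := ⟨(i : ℕ) - 1, by omega⟩ with hj
      have hji : j < i := by
        rw [Fin.lt_def]
        simp only [hj]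
        omega
      have hsj : sy j = true := by
        have h1 : ((j : ℕ) + 1) = (i : ℕ) := by
          simp only [hj]
          omega
        have h2 := sy_succ (j : ℕ)
        rw [h1, hi] at h2
        cases h3 : sy (j : ℕ) with
        | true => rfl
        | false => rw [h3] at h2; simp at h2
      obtain ⟨x0, hx0R, hx0le, hx0s, -⟩ := Etrue j hsj
      have hex : ∃ x ∈ Rep, x < r i ∧ A x c ≠ A x d := by
        refine ⟨x0, hx0R, lt_of_le_of_lt hx0le (hmono hji), ?_⟩
        rw [hsj] at hx0s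
        rw [hx0s.1, hx0s.2]
        decide
      obtain ⟨x, hxR, hxy, hsx, hall⟩ := pull_false A Rep (r i) c d hcd (R (r i)) (hR _) hs.1
        (by simpa using hs.2) hex
      refine ⟨x, hxR, hxy.le, by rw [hi]; exact hsx, Or.inr ?_⟩
      rw [hi]
      exact hall
  have E : ∀ i : Fin (k' + 1), ∃ x, x ∈ Rep ∧ x ≤ r i ∧ Shows A x c d (sy i) ∧
      (x = r i ∨ ∀ x' ∈ Rep, x' < r i → Shows A x' c d (!sy i) → x' < x) := by
    intro i
    cases hi : sy (i : ℕ) with
    | true => have := Etrue i hi; rwa [hi] at this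
    | false => have := Efalse i hi; rwa [hi] at this
  choose x hxR hxle hxs hxlast using E
  have hxmono : StrictMono x := by
    rw [Fin.strictMono_iff_lt_succ]
    intro i
    have hlt : r i.castSucc < r i.succ := hmono (Fin.castSucc_lt_succ)
    have hlt' : x i.castSucc < r i.succ := lt_of_le_of_lt (hxle _) hlt
    rcases hxlast i.succ with h | h
    · rw [h]; exact hlt'
    · apply h _ (hxR _) hlt'
      have h1 := hxs i.castSucc
      have h2 : sy ((i.succ : Fin (k' + 1)) : ℕ) = !sy ((i.castSucc : Fin (k' + 1)) : ℕ) := by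
        have := sy_succ (i : ℕ)
        simpa using this
      rw [h2]
      simpa using h1
  rcases hclean x c d hcd ⟨hxmono, hxs⟩ hxR with h | h
  · exact hcZ h
  · exact hdZ h

end Vale.Agent.Lib.P037X
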