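import Vale.Agent.Lib.P037X.XDefs

namespace Vale.Agent.Lib.P037X
open Finset
variable {n : ℕ}

open Classical in
/-- for injective `a` the map `ω ↦ ω ∘ a` has fibres of size `n^(M-k)`:
`{ω | ω ∘ a = r} = Fintype.piFinset (fun m => if h : ∃ i, a i = m then {r h.choose} else univ)`. -/
theorem card_comp_le {M k : ℕ} (a : Fin k → Fin M) (ha : Function.Injective a)
    (S : Finset (Fin k → Fin n)) :
    #{ω : Fin M → Fin n | ω ∘ a ∈ S} ≤ #S * n ^ (M - k) := by
  have fib : ∀ r : Fin k → Fin n, #{ω : Fin M → Fin n | ω ∘ a = r} ≤ n ^ (M - k) := by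
    intro r
    have hsub : ({ω : Fin M → Fin n | ω ∘ a = r} : Finset _) ⊆
        Fintype.piFinset (fun m => if h : ∃ i, a i = m then {r h.choose} else univ) := by
      intro ω hω
      rw [mem_filter] at hω
      rw [Fintype.mem_piFinset]
      intro m
      split_ifs with h
      · rw [mem_singleton, ← hω.2]
        simp only [Function.comp]
        rw [h.choose_spec]
      · exact mem_univ _
    refine (card_le_card hsub).trans ?_
    rw [Fintype.card_piFinset]
    have h1 : ∀ m : Fin M, #(if h : ∃ i, a i = m then ({r h.choose} : Finset (Fin n)) else univ)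
        = if (∃ i, a i = m) then 1 else n := by
      intro m
      split_ifs <;> simp
    simp_rw [h1]
    rw [prod_ite]
    simp only [prod_const_one, one_mul, prod_const]
    have hc : #{m : Fin M | ¬ ∃ i, a i = m} = M - k := by
      have h2 : ({m : Fin M | ¬ ∃ i, a i = m} : Finset _) = univ \ (univ.image a) := by
        ext m; simp
      rw [h2, card_sdiff_of_subset (subset_univ _), card_image_of_injective _ ha]
      simp
    rw [hc]
  have hU : ({ω : Fin M → Fin n | ω ∘ a ∈ S} : Finset _)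
      ⊆ S.biUnion fun r => {ω : Fin M → Fin n | ω ∘ a = r} := by
    intro ω hω
    rw [mem_filter] at hω
    rw [mem_biUnion]
    exact ⟨ω ∘ a, hω.2, by simp⟩
  exact (card_le_card hU).trans (card_biUnion_le_card_mul _ _ _ fun r _ => fib r)

open Classical in
theorem per_a (A : Fin n → Fin n → Bool) (k M : ℕ) (a : Fin k → Fin M) :
    (∑ ω : Fin M → Fin n, #{p : Fin n × Fin n | p.1 < p.2 ∧ IsAlt A k (ω ∘ a) p.1 p.2}) * n ^ k
      ≤ cntX A k * n ^ M := by
  have hswap : ∑ ω : Fin M → Fin n, #{p : Fin n × Fin n | p.1 < p.2 ∧ IsAlt A k (ω ∘ a) p.1 p.2}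
      = ∑ p : Fin n × Fin n, #{ω : Fin M → Fin n | p.1 < p.2 ∧ IsAlt A k (ω ∘ a) p.1 p.2} := by
    simp_rw [card_filter]
    rw [sum_comm]
  rw [hswap]
  by_cases ha : Function.Injective a
  · have hkM : k ≤ M := by
      have := Fintype.card_le_of_injective a ha
      simpa using this
    have hp : ∀ p : Fin n × Fin n, #{ω : Fin M → Fin n | p.1 < p.2 ∧ IsAlt A k (ω ∘ a) p.1 p.2}
        ≤ (if p.1 < p.2 then Kp A k p.1 p.2 else 0) * n ^ (M - k) := by
      intro p
      split_ifs with hlt
      · have := card_comp_le a ha ({r : Fin k → Fin n | IsAlt A k r p.1 p.2} : Finset _)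
        unfold Kp
        refine le_trans (card_le_card ?_) this
        intro ω hω
        rw [mem_filter] at hω
        rw [mem_filter, mem_filter]
        exact ⟨mem_univ _, mem_univ _, hω.2.2⟩
      · simp [hlt]
    have hc : cntX A k = ∑ p : Fin n × Fin n, (if p.1 < p.2 then Kp A k p.1 p.2 else 0) := by
      unfold cntX
      rw [Fintype.sum_prod_type]
    calc (∑ p : Fin n × Fin n, #{ω : Fin M → Fin n | p.1 < p.2 ∧ IsAlt A k (ω ∘ a) p.1 p.2}) * n ^ k
        ≤ (∑ p : Fin n × Fin n, (if p.1 < p.2 then Kp A k p.1 p.2 else 0) * n ^ (M - k)) * n ^ k :=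
          Nat.mul_le_mul_right _ (sum_le_sum fun p _ => hp p)
      _ = cntX A k * n ^ M := by
          rw [← sum_mul, ← hc, mul_assoc, ← pow_add, Nat.sub_add_cancel hkM]
  · have hz : ∀ p : Fin n × Fin n,
        #{ω : Fin M → Fin n | p.1 < p.2 ∧ IsAlt A k (ω ∘ a) p.1 p.2} = 0 := by
      intro p
      rw [card_eq_zero, filter_eq_empty_iff]
      intro ω _ h
      apply ha
      exact (h.2.1.injective).of_comp
    simp [hz]

/-- swap the sums; non-injective `a` contribute `0` (`ω ∘ a` is not strictly monotone); `k ≤ M` for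
injective `a`, `n^(M-k) = n^M / n^k`; there are at most `M^k` maps `a`. -/
theorem sum_PPX (hn : 0 < n) (A : Fin n → Fin n → Bool) (k M : ℕ) :
    ∑ ω : Fin M → Fin n, (PPX A k ω : ℝ) ≤ (M : ℝ) ^ k * cntX A k / (n : ℝ) ^ k * (n : ℝ) ^ M := by
  classical
  have hN : (∑ ω : Fin M → Fin n, PPX A k ω) * n ^ k ≤ M ^ k * (cntX A k * n ^ M) := by
    unfold PPX
    rw [sum_comm, sum_mul]
    refine (sum_le_sum fun a _ => per_a A k M a).trans (le_of_eq ?_)
    simp
  have hn' : (0 : ℝ) < (n : ℝ) ^ k := by positivity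
  have hR : (∑ ω : Fin M → Fin n, (PPX A k ω : ℝ)) * (n : ℝ) ^ k
      ≤ (M : ℝ) ^ k * (cntX A k * (n : ℝ) ^ M) := by
    exact_mod_cast hN
  rw [div_mul_eq_mul_div, le_div_iff₀ hn']
  linarith
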