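import Vale.Agent.Lib.P037X.SumInv
import Vale.Agent.Lib.P037X.SumPP
import Vale.Agent.Lib.P037X.Clean
import Vale.Agent.Lib.P037X.Cost
import Vale.Agent.Lib.P037X.Exact
import Vale.Agent.Lib.P037L.AvgPQ

namespace Vale.Agent.Lib.P037X
open Finset
open Vale.Agent.Lib.P037 (hd)
open Vale.Agent.Lib.P037L (RepOf)
variable {n : ℕ}


namespace NX

theorem t1 (e x T v : ℝ) (hx : 0 < x) (hv : 0 < v) (h : 32 * T ≤ e * v) :
    x ^ 2 * T / v ≤ e * x ^ 2 / 32 := by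
  rw [div_le_iff₀ hv]
  have : x ^ 2 * (32 * T) ≤ x ^ 2 * (e * v) := mul_le_mul_of_nonneg_left h (by positivity)
  nlinarith

theorem t2 (e x M T v : ℝ) (he : 0 < e) (hx : 0 < x) (hv : 0 < v) (hM : 0 < M) (hT : 0 < T)
    (h : 32 * x ^ 2 ≤ e * v * M * T) :
    x ^ 2 * (x / (1 + M * T / x)) / v ≤ e * x ^ 2 / 32 := by
  have hpos : 0 < 1 + M * T / x := by positivity
  rw [div_le_iff₀ hv, ← mul_div_assoc, div_le_iff₀ hpos]
  have h2 : e * x ^ 2 / 32 * v * (M * T / x) = (e * v * M * T) * x / 32 := by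
    field_simp
  have h3 : 0 ≤ e * x ^ 2 / 32 * v := by positivity
  have h4 : (32 * x ^ 2) * x / 32 ≤ (e * v * M * T) * x / 32 := by gcongr
  calc x ^ 2 * x = (32 * x ^ 2) * x / 32 := by ring
    _ ≤ (e * v * M * T) * x / 32 := h4
    _ = e * x ^ 2 / 32 * v * (M * T / x) := h2.symm
    _ ≤ e * x ^ 2 / 32 * v * (1 + M * T / x) := mul_le_mul_of_nonneg_left (by linarith) h3

theorem t3 (e x kk M T v : ℝ) (hx : 0 < x) (hv : 0 < v)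
    (h : 96 * kk * M * T ^ 2 ≤ e * v * x) :
    x ^ 2 * (3 * kk * M * T ^ 2 / x) / v ≤ e * x ^ 2 / 32 := by
  rw [div_le_iff₀ hv]
  have e1 : x ^ 2 * (3 * kk * M * T ^ 2 / x) = x * (96 * kk * M * T ^ 2) / 32 := by
    field_simp; ring
  rw [e1]
  have : x * (96 * kk * M * T ^ 2) ≤ x * (e * v * x) := mul_le_mul_of_nonneg_left h hx.le
  nlinarith

theorem t4 (k : ℕ) (e x N T v : ℝ) (hx : 0 < x) (hv : 0 < v) (hT : 0 < T)
    (h : 64 * N ≤ e * x * v * T ^ k) :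
    2 * x * N / T ^ k / v ≤ e * x ^ 2 / 32 := by
  have hTk : 0 < T ^ k := by positivity
  rw [div_le_iff₀ hv, div_le_iff₀ hTk]
  have : x * (64 * N) ≤ x * (e * x * v * T ^ k) := mul_le_mul_of_nonneg_left h hx.le
  nlinarith

theorem t5 (k : ℕ) (e x N M κ : ℝ) (he : 0 < e) (hx : 0 < x) (hκ : 0 < κ)
    (h : 2 * (M ^ k * N) ≤ κ ^ 2 * x ^ k) :
    e * x ^ 2 / (4 * κ ^ 2) * (M ^ k * N / x ^ k) ≤ e * x ^ 2 / 8 := by
  have hxk : 0 < x ^ k := by positivity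
  have e1 : e * x ^ 2 / (4 * κ ^ 2) * (M ^ k * N / x ^ k)
      = e * x ^ 2 * (M ^ k * N) / (4 * κ ^ 2 * x ^ k) := by
    field_simp
  rw [e1, div_le_iff₀ (by positivity)]
  have h0 : 0 ≤ e * x ^ 2 := by positivity
  have := mul_le_mul_of_nonneg_left h h0
  nlinarith

theorem th_le (e kk : ℝ) (he0 : 0 < e) (he1 : e < 1) (hkk : 1 ≤ kk) :
    e ^ 4 / (2 ^ 22 * kk) ≤ e ^ 2 / 512 := by
  rw [div_le_iff₀ (by positivity)]
  have h1 : e ^ 4 ≤ e ^ 2 := pow_le_pow_of_le_one he0.le he1.le (by norm_num)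
  have h2 : e ^ 2 * 1 ≤ e ^ 2 * (8192 * kk) :=
    mul_le_mul_of_nonneg_left (by linarith) (by positivity)
  have h3 : e ^ 2 / 512 * (2 ^ 22 * kk) = e ^ 2 * (8192 * kk) := by ring
  linarith

theorem g_le_th (e kk : ℝ) (he0 : 0 < e) (he1 : e < 1) (hkk : 1 ≤ kk) :
    e ^ 6 / (2 ^ 33 * kk) ≤ e ^ 4 / (2 ^ 22 * kk) / 2 := by
  have hk0 : 0 < kk := by linarith
  have h1 : e ^ 6 ≤ e ^ 4 := pow_le_pow_of_le_one he0.le he1.le (by norm_num)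
  have e1 : e ^ 4 / (2 ^ 22 * kk) / 2 = (1024 * e ^ 4) / (2 ^ 33 * kk) := by
    field_simp; ring
  rw [e1]
  apply div_le_div_of_nonneg_right _ (by positivity)
  have : 0 ≤ e ^ 4 := by positivity
  linarith

theorem g_le_one (e kk : ℝ) (he0 : 0 < e) (he1 : e < 1) (hkk : 1 ≤ kk) :
    e ^ 6 / (2 ^ 33 * kk) ≤ 1 := by
  rw [div_le_one (by positivity)]
  have h1 : e ^ 6 ≤ 1 := pow_le_one₀ he0.le he1.le
  have : (1:ℝ) ≤ 2 ^ 33 * kk := by nlinarith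
  linarith

theorem ca (e x kk T v : ℝ) (he0 : 0 < e) (he1 : e < 1) (hx : 0 < x) (hkk : 1 ≤ kk)
    (hv2 : e * x / 16 ≤ v) (hT1 : T ≤ e ^ 4 / (2 ^ 22 * kk) * x) : 32 * T ≤ e * v := by
  have h1 := th_le e kk he0 he1 hkk
  have h2 : e ^ 4 / (2 ^ 22 * kk) * x ≤ e ^ 2 / 512 * x := mul_le_mul_of_nonneg_right h1 hx.le
  have h3 : e * (e * x / 16) ≤ e * v := mul_le_mul_of_nonneg_left hv2 he0.le
  have h4 : e * (e * x / 16) = 32 * (e ^ 2 / 512 * x) := by ring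
  linarith

theorem cb (e x kk M T v : ℝ) (he0 : 0 < e) (hx : 0 < x) (hkk : 1 ≤ kk) (hM : 0 < M)
    (hv2 : e * x / 16 ≤ v) (hT2 : e ^ 4 / (2 ^ 22 * kk) * x / 2 ≤ T)
    (hM1 : 2 ^ 32 * kk ≤ e ^ 6 * M) : 32 * x ^ 2 ≤ e * v * M * T := by
  have hk0 : 0 < kk := by linarith
  have hv : 0 < v := lt_of_lt_of_le (by positivity) hv2
  have a1 : e * (e * x / 16) * M * (e ^ 4 / (2 ^ 22 * kk) * x / 2) ≤ e * v * M * T := by gcongr
  have a2 : e * (e * x / 16) * M * (e ^ 4 / (2 ^ 22 * kk) * x / 2)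
      = (e ^ 6 * M) * (x ^ 2 / (2 ^ 27 * kk)) := by
    field_simp; ring
  have a3 : (2 ^ 32 * kk) * (x ^ 2 / (2 ^ 27 * kk)) ≤ (e ^ 6 * M) * (x ^ 2 / (2 ^ 27 * kk)) :=
    mul_le_mul_of_nonneg_right hM1 (by positivity)
  have a4 : (2 ^ 32 * kk) * (x ^ 2 / (2 ^ 27 * kk)) = 32 * x ^ 2 := by
    field_simp; ring
  linarith

theorem cc (e x kk M T v : ℝ) (he0 : 0 < e) (hx : 0 < x) (hkk : 1 ≤ kk) (hM : 0 < M) (hT : 0 < T)
    (hv2 : e * x / 16 ≤ v) (hT1 : T ≤ e ^ 4 / (2 ^ 22 * kk) * x)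
    (hM2 : e ^ 6 * M ≤ 2 ^ 33 * kk) : 96 * kk * M * T ^ 2 ≤ e * v * x := by
  have hk0 : 0 < kk := by linarith
  have a0 : T ^ 2 ≤ (e ^ 4 / (2 ^ 22 * kk) * x) ^ 2 := pow_le_pow_left₀ hT.le hT1 2
  have a1 : 96 * kk * M * T ^ 2 ≤ 96 * kk * M * (e ^ 4 / (2 ^ 22 * kk) * x) ^ 2 :=
    mul_le_mul_of_nonneg_left a0 (by positivity)
  have a2 : 96 * kk * M * (e ^ 4 / (2 ^ 22 * kk) * x) ^ 2
      = (e ^ 6 * M) * (96 * e ^ 2 * x ^ 2 / (2 ^ 44 * kk)) := by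
    field_simp
  have a3 : (e ^ 6 * M) * (96 * e ^ 2 * x ^ 2 / (2 ^ 44 * kk))
      ≤ (2 ^ 33 * kk) * (96 * e ^ 2 * x ^ 2 / (2 ^ 44 * kk)) :=
    mul_le_mul_of_nonneg_right hM2 (by positivity)
  have a4 : (2 ^ 33 * kk) * (96 * e ^ 2 * x ^ 2 / (2 ^ 44 * kk)) = 3 / 64 * (e ^ 2 * x ^ 2) := by
    field_simp; ring
  have a5 : e * (e * x / 16) * x ≤ e * v * x := by gcongr
  have a6 : e * (e * x / 16) * x = 4 / 64 * (e ^ 2 * x ^ 2) := by ring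
  have a7 : 0 ≤ e ^ 2 * x ^ 2 := by positivity
  linarith

theorem cd (k : ℕ) (e x N T v g : ℝ) (he0 : 0 < e) (hx : 0 < x) (hg0 : 0 < g) (hg1 : g ≤ 1)
    (hv2 : e * x / 16 ≤ v) (hT2 : g * x ≤ T)
    (hN : N ≤ e ^ 2 * g ^ (3 * k) * x ^ (k + 2) / 2048) : 64 * N ≤ e * x * v * T ^ k := by
  have hv : 0 < v := lt_of_lt_of_le (by positivity) hv2
  have a0 : (g * x) ^ k ≤ T ^ k := pow_le_pow_left₀ (by positivity) hT2 k
  have a1 : g ^ (3 * k) ≤ g ^ k := pow_le_pow_of_le_one hg0.le hg1 (by omega)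
  have a2 : e * x * (e * x / 16) * (g * x) ^ k ≤ e * x * v * T ^ k := by gcongr
  have a3 : e * x * (e * x / 16) * (g * x) ^ k = e ^ 2 * g ^ k * x ^ (k + 2) / 16 := by
    rw [mul_pow]; ring
  have a4 : e ^ 2 * g ^ (3 * k) * x ^ (k + 2) ≤ e ^ 2 * g ^ k * x ^ (k + 2) := by gcongr
  have a5 : 0 ≤ e ^ 2 * g ^ k * x ^ (k + 2) := by positivity
  linarith

theorem ce (k : ℕ) (e x N M κ g : ℝ) (he0 : 0 < e) (hx : 0 < x) (hg0 : 0 < g) (hM : 0 < M)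
    (hMg : M * g ≤ 1) (hκ2 : e * x ≤ 32 * M ^ k * κ)
    (hN : N ≤ e ^ 2 * g ^ (3 * k) * x ^ (k + 2) / 2048) : 2 * (M ^ k * N) ≤ κ ^ 2 * x ^ k := by
  have a0 : (e * x) ^ 2 ≤ (32 * M ^ k * κ) ^ 2 := pow_le_pow_left₀ (by positivity) hκ2 2
  have a1 : (M * g) ^ (3 * k) ≤ 1 := pow_le_one₀ (by positivity) hMg
  have a2 : M ^ (3 * k) * N ≤ M ^ (3 * k) * (e ^ 2 * g ^ (3 * k) * x ^ (k + 2) / 2048) :=
    mul_le_mul_of_nonneg_left hN (by positivity)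
  have a3 : M ^ (3 * k) * (e ^ 2 * g ^ (3 * k) * x ^ (k + 2) / 2048)
      = (M * g) ^ (3 * k) * (e ^ 2 * x ^ (k + 2) / 2048) := by
    rw [mul_pow]; ring
  have a4 : (M * g) ^ (3 * k) * (e ^ 2 * x ^ (k + 2) / 2048) ≤ 1 * (e ^ 2 * x ^ (k + 2) / 2048) :=
    mul_le_mul_of_nonneg_right a1 (by positivity)
  have a5 : (e * x) ^ 2 * x ^ k ≤ (32 * M ^ k * κ) ^ 2 * x ^ k :=
    mul_le_mul_of_nonneg_right a0 (by positivity)
  have a6 : (e * x) ^ 2 * x ^ k = e ^ 2 * x ^ (k + 2) := by ring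
  have a7 : (1024 * M ^ (2 * k)) * (2 * (M ^ k * N)) ≤ (1024 * M ^ (2 * k)) * (κ ^ 2 * x ^ k) := by
    have b1 : (1024 * M ^ (2 * k)) * (2 * (M ^ k * N)) = 2048 * (M ^ (3 * k) * N) := by ring
    have b2 : (1024 * M ^ (2 * k)) * (κ ^ 2 * x ^ k) = (32 * M ^ k * κ) ^ 2 * x ^ k := by ring
    rw [b1, b2]
    linarith
  exact le_of_mul_le_mul_left a7 (by positivity)

/-- choice of the integer parameters. -/
theorem paramsX (k : ℕ) (hk : 1 ≤ k) (e x : ℝ) (he0 : 0 < e) (he1 : e < 1) (hx : 0 < x)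
    (hu : 32 < e * x * (e ^ 6 / (2 ^ 33 * (k : ℝ))) ^ k) :
    ∃ M v T κ : ℕ, 1 ≤ M ∧ 1 ≤ v ∧ 1 ≤ T ∧ 1 ≤ κ ∧ (T : ℝ) ≤ x ∧
      2 ^ 32 * (k : ℝ) ≤ e ^ 6 * M ∧ e ^ 6 * M ≤ 2 ^ 33 * (k : ℝ) ∧
      (v : ℝ) ≤ e * x / 8 ∧ e * x / 16 ≤ v ∧
      (T : ℝ) ≤ e ^ 4 / (2 ^ 22 * (k : ℝ)) * x ∧ e ^ 4 / (2 ^ 22 * (k : ℝ)) * x / 2 ≤ T ∧
      16 * (M : ℝ) ^ k * κ ≤ e * x ∧ e * x ≤ 32 * (M : ℝ) ^ k * κ := by
  have hkk : (1 : ℝ) ≤ k := by exact_mod_cast hk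
  have hk0 : (0 : ℝ) < k := by linarith
  set g : ℝ := e ^ 6 / (2 ^ 33 * (k : ℝ)) with hg
  set θ : ℝ := e ^ 4 / (2 ^ 22 * (k : ℝ)) with hθ
  have hg0 : 0 < g := by positivity
  have hg1 : g ≤ 1 := g_le_one e k he0 he1 hkk
  have hgθ : g ≤ θ / 2 := g_le_th e k he0 he1 hkk
  have hθ1 : θ ≤ e ^ 2 / 512 := th_le e k he0 he1 hkk
  have hgk1 : g ^ k ≤ 1 := pow_le_one₀ hg0.le hg1
  have hgkg : g ^ k ≤ g := by
    calc g ^ k ≤ g ^ 1 := pow_le_pow_of_le_one hg0.le hg1 hk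
      _ = g := pow_one g
  have hex0 : 0 < e * x := by positivity
  have hex : 32 < e * x := by
    have : e * x * g ^ k ≤ e * x * 1 := mul_le_mul_of_nonneg_left hgk1 hex0.le
    linarith
  have hgx : 32 < g * x := by
    have h1 : e * x * g ^ k ≤ 1 * x * g := by
      have : e * x ≤ 1 * x := mul_le_mul_of_nonneg_right he1.le hx.le
      exact mul_le_mul this hgkg (by positivity) (by positivity)
    nlinarith
  have he6 : 0 < e ^ 6 := by positivity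
  have he6' : e ^ 6 ≤ 1 := pow_le_one₀ he0.le he1.le
  -- M
  set M : ℕ := ⌈2 ^ 32 * (k : ℝ) / e ^ 6⌉₊ with hMdef
  have hM1 : 2 ^ 32 * (k : ℝ) / e ^ 6 ≤ (M : ℝ) := Nat.le_ceil _
  have hM2 : (M : ℝ) < 2 ^ 32 * (k : ℝ) / e ^ 6 + 1 := Nat.ceil_lt_add_one (by positivity)
  have hM1' : 2 ^ 32 * (k : ℝ) ≤ e ^ 6 * M := by
    rw [div_le_iff₀ he6] at hM1
    linarith
  have hM2' : e ^ 6 * M ≤ 2 ^ 33 * (k : ℝ) := by
    have h := mul_lt_mul_of_pos_left hM2 he6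
    have e1 : e ^ 6 * (2 ^ 32 * (k : ℝ) / e ^ 6 + 1) = 2 ^ 32 * (k : ℝ) + e ^ 6 := by field_simp
    rw [e1] at h
    have : (2 : ℝ) ^ 33 * k = 2 ^ 32 * k + 2 ^ 32 * k := by ring
    have h17 : (1 : ℝ) ≤ 2 ^ 32 * k := by nlinarith
    linarith
  have hMge : (1 : ℝ) ≤ M := by
    have h17 : (1 : ℝ) ≤ 2 ^ 32 * k := by nlinarith
    have : e ^ 6 * (M : ℝ) ≤ 1 * M := mul_le_mul_of_nonneg_right he6' (by positivity)
    linarith
  have hM0 : (0 : ℝ) < M := by linarith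
  have hMg : (M : ℝ) * g ≤ 1 := by
    have : (M : ℝ) * g = e ^ 6 * M / (2 ^ 33 * (k : ℝ)) := by rw [hg]; ring
    rw [this, div_le_one (by positivity)]
    exact hM2'
  -- v
  set v : ℕ := ⌊e * x / 8⌋₊ with hvdef
  have hv1 : (v : ℝ) ≤ e * x / 8 := Nat.floor_le (by positivity)
  have hv2 : e * x / 8 < (v : ℝ) + 1 := Nat.lt_floor_add_one _
  have hv2' : e * x / 16 ≤ v := by linarith
  have hvge : (1 : ℝ) ≤ v := by linarith
  -- T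
  have hθ0 : 0 < θ := by positivity
  have hθx : 64 < θ * x := by
    have : g * x ≤ θ / 2 * x := mul_le_mul_of_nonneg_right hgθ hx.le
    linarith
  set T : ℕ := ⌊θ * x⌋₊ with hTdef
  have hT1 : (T : ℝ) ≤ θ * x := Nat.floor_le (by positivity)
  have hT2 : θ * x < (T : ℝ) + 1 := Nat.lt_floor_add_one _
  have hT2' : θ * x / 2 ≤ T := by linarith
  have hTge : (1 : ℝ) ≤ T := by linarith
  have hTx : (T : ℝ) ≤ x := by
    have h1 : θ ≤ 1 := by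
      have : e ^ 2 ≤ 1 := pow_le_one₀ he0.le he1.le
      linarith
    have : θ * x ≤ 1 * x := mul_le_mul_of_nonneg_right h1 hx.le
    linarith
  -- κ
  have hMk : (0 : ℝ) < 16 * (M : ℝ) ^ k := by positivity
  set κ : ℕ := ⌊e * x / (16 * (M : ℝ) ^ k)⌋₊ with hκdef
  have hk1 : (κ : ℝ) ≤ e * x / (16 * (M : ℝ) ^ k) := Nat.floor_le (by positivity)
  have hk2 : e * x / (16 * (M : ℝ) ^ k) < (κ : ℝ) + 1 := Nat.lt_floor_add_one _
  have hk1' : 16 * (M : ℝ) ^ k * κ ≤ e * x := by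
    rw [le_div_iff₀ hMk] at hk1
    linarith
  have hbig : 32 * (M : ℝ) ^ k ≤ e * x := by
    have h2 : ((M : ℝ) * g) ^ k ≤ 1 := pow_le_one₀ (by positivity) hMg
    have h3 : g ^ k * (32 * (M : ℝ) ^ k) ≤ g ^ k * (e * x) := by
      calc g ^ k * (32 * (M : ℝ) ^ k) = 32 * ((M : ℝ) * g) ^ k := by rw [mul_pow]; ring
        _ ≤ 32 := by linarith
        _ ≤ e * x * g ^ k := hu.le
        _ = g ^ k * (e * x) := by ring
    exact le_of_mul_le_mul_left h3 (by positivity)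
  have hk2' : e * x < 16 * (M : ℝ) ^ k * κ + 16 * (M : ℝ) ^ k := by
    rw [div_lt_iff₀ hMk] at hk2
    linarith
  have hk2'' : e * x ≤ 32 * (M : ℝ) ^ k * κ := by linarith
  have hκge : (1 : ℝ) ≤ κ := by
    have : 32 * (M : ℝ) ^ k * 1 ≤ 32 * (M : ℝ) ^ k * κ := by linarith
    exact le_of_mul_le_mul_left this (by positivity)
  exact ⟨M, v, T, κ, by exact_mod_cast hMge, by exact_mod_cast hvge, by exact_mod_cast hTge,
    by exact_mod_cast hκge, hTx, hM1', hM2', hv1, hv2', hT1, hT2', hk1', hk2''⟩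

end NX

/-- ABSTRACT PARAMETERS (copy `P037L.L_abstract`): `Φ ω = (∑_y inv)/v + lam * PPX ω`, some `ω` has `Φ ω ≤ Y`;
`PPX ω ≤ κ κ`; `good_of_PPX`, `card_ZX_le`, `clean_ZX`, `cost_build`, `exact_build`, `card_RepOf_le`. -/
theorem X_abstract (hn : 0 < n) (A : Fin n → Fin n → Bool) (k : ℕ) (hk : 2 ≤ k) (M κ v T : ℕ)
    (hκ : 1 ≤ κ) (hv : 1 ≤ v) (hT : T ≤ n) (hT1 : 1 ≤ T) (lam Y : ℝ) (hlam : 0 < lam)
    (hY : ((n : ℝ) ^ 2 * (T + n / (1 + M * T / n) + 3 * k * M * (T : ℝ) ^ 2 / n)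
        + 2 * n * cntX A k / (T : ℝ) ^ k) / v
        + lam * ((M : ℝ) ^ k * cntX A k / (n : ℝ) ^ k) ≤ Y)
    (hfin : Y < lam * ((κ : ℝ) * κ + 1)) :
    ∃ B : Fin n → Fin n → Bool, XFree B k ∧
      (hd A B : ℝ) ≤ n * ((M : ℝ) ^ k * (2 * κ)) + n * v + Y := by
  classical
  have hvpos : (0 : ℝ) < v := by exact_mod_cast hv
  have hnpos : (0 : ℝ) < n := by exact_mod_cast hn
  have : Nonempty (Fin n) := ⟨⟨0, hn⟩⟩
  set Φ : (Fin M → Fin n) → ℝ := fun ω =>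
    (∑ y, (inv A (RepOf ω) y : ℝ)) / v + lam * (PPX A k ω : ℝ) with hΦ
  have hsum : ∑ ω : Fin M → Fin n, Φ ω ≤ ∑ _ω : Fin M → Fin n, Y := by
    have h1 := sum_inv hn A k M T hT hT1
    have h3 := sum_PPX hn A k M
    have e : ∑ ω : Fin M → Fin n, Φ ω
        = (∑ ω : Fin M → Fin n, ∑ y, (inv A (RepOf ω) y : ℝ)) / v
          + lam * (∑ ω : Fin M → Fin n, (PPX A k ω : ℝ)) := by
      simp only [hΦ, sum_add_distrib, sum_div, mul_sum]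
    rw [e]
    have hP : (0 : ℝ) < (n : ℝ) ^ M := by positivity
    have c1 := div_le_div_of_nonneg_right h1 hvpos.le
    have c3 := mul_le_mul_of_nonneg_left h3 hlam.le
    have hY' := mul_le_mul_of_nonneg_right hY hP.le
    have hcard : ∑ _ω : Fin M → Fin n, Y = Y * (n : ℝ) ^ M := by
      simp [mul_comm]
    rw [hcard]
    calc _ ≤ ((n : ℝ) ^ 2 * (T + n / (1 + M * T / n) + 3 * k * M * (T : ℝ) ^ 2 / n)
        + 2 * n * cntX A k / (T : ℝ) ^ k) * (n : ℝ) ^ M / v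
          + lam * ((M : ℝ) ^ k * cntX A k / (n : ℝ) ^ k * (n : ℝ) ^ M) := by linarith
      _ = (((n : ℝ) ^ 2 * (T + n / (1 + M * T / n) + 3 * k * M * (T : ℝ) ^ 2 / n)
        + 2 * n * cntX A k / (T : ℝ) ^ k) / v
        + lam * ((M : ℝ) ^ k * cntX A k / (n : ℝ) ^ k)) * (n : ℝ) ^ M := by ring
      _ ≤ _ := hY'
  obtain ⟨ω, -, hω⟩ := Finset.exists_le_of_sum_le (s := (univ : Finset (Fin M → Fin n)))
    univ_nonempty hsum
  have t1 : (0 : ℝ) ≤ (∑ y, (inv A (RepOf ω) y : ℝ)) / v := by positivity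
  have t3 : (0 : ℝ) ≤ lam * (PPX A k ω : ℝ) := by positivity
  have hω' : (∑ y, (inv A (RepOf ω) y : ℝ)) / v + lam * (PPX A k ω : ℝ) ≤ Y := hω
  have hPP : PPX A k ω ≤ κ * κ := by
    have : lam * (PPX A k ω : ℝ) < lam * ((κ : ℝ) * κ + 1) := by linarith
    have h4 : (PPX A k ω : ℝ) < (κ : ℝ) * κ + 1 := lt_of_mul_lt_mul_left this hlam.le
    have h5 : PPX A k ω < κ * κ + 1 := by exact_mod_cast h4
    omega
  have hZ := card_ZX_le A k κ hκ (RepOf ω) (fun r hr hm => good_of_PPX A k κ ω hPP r hr hm)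
  have hR := Vale.Agent.Lib.P037L.card_RepOf_le ω
  obtain ⟨R, hRm, hc⟩ := cost_build A (RepOf ω) (ZX A k κ (RepOf ω)) v hv
  refine ⟨buildX A (RepOf ω) (ZX A k κ (RepOf ω)) R,
    exact_build A k hk _ _ R hRm (fun r c d hcd h hr => clean_ZX A k κ _ r c d hcd h hr),
    hc.trans ?_⟩
  have hZ' : (#(ZX A k κ (RepOf ω)) : ℝ) ≤ (M : ℝ) ^ k * (2 * κ) := by
    have : #(ZX A k κ (RepOf ω)) ≤ M ^ k * (2 * κ) :=
      hZ.trans (Nat.mul_le_mul_right _ (Nat.pow_le_pow_left hR k))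
    exact_mod_cast this
  have a1 : (n : ℝ) * #(ZX A k κ (RepOf ω)) ≤ n * ((M : ℝ) ^ k * (2 * κ)) :=
    mul_le_mul_of_nonneg_left hZ' hnpos.le
  linarith

theorem XFree_of_cntX_eq_zero (A : Fin n → Fin n → Bool) (k : ℕ) (h : cntX A k = 0) :
    XFree A k := by
  classical
  intro r c d hcd hr
  unfold cntX at h
  rw [Finset.sum_eq_zero_iff] at h
  have h1 := h c (mem_univ _)
  rw [Finset.sum_eq_zero_iff] at h1
  have h2 := h1 d (mem_univ _)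
  rw [if_pos hcd] at h2
  unfold Kp at h2
  rw [card_eq_zero] at h2
  have : r ∈ ({r : Fin k → Fin n | IsAlt A k r c d} : Finset _) := by
    simp only [mem_filter, mem_univ, true_and]; exact hr
  rw [h2] at this
  exact absurd this (notMem_empty _)

/-- CORE THEOREM for `X_k` (numerics, constants free). -/
theorem coreX (k : ℕ) (hk : 2 ≤ k) : ∃ c C : ℝ, 0 < c ∧ 0 < C ∧
    ∀ n : ℕ, 0 < n → ∀ (A : Fin n → Fin n → Bool) (ε : ℝ), 0 < ε → ε < 1 →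
      (cntX A k : ℝ) < c * ε ^ C * (n : ℝ) ^ (k + 2) →
      ∃ B : Fin n → Fin n → Bool, XFree B k ∧ (hd A B : ℝ) < ε * (n : ℝ) ^ 2 := by
  have hkk : (1 : ℝ) ≤ k := by
    have : 1 ≤ k := by omega
    exact_mod_cast this
  have hk0 : (0 : ℝ) < k := by linarith
  refine ⟨(1 / (32 * (2 ^ 33 * (k : ℝ)) ^ k)) ^ (k + 2), (((6 * k + 1) * (k + 2) : ℕ) : ℝ),
    by positivity, by positivity, ?_⟩
  intro n hn A ε hε hε1 hN
  have hx : (0 : ℝ) < n := by exact_mod_cast hn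
  by_cases h0 : cntX A k = 0
  · refine ⟨A, XFree_of_cntX_eq_zero A k h0, ?_⟩
    have : hd A A = 0 := by simp [hd]
    rw [this]
    simp only [Nat.cast_zero]
    positivity
  have hN1 : (1 : ℝ) ≤ cntX A k := by exact_mod_cast Nat.one_le_iff_ne_zero.2 h0
  set g : ℝ := ε ^ 6 / (2 ^ 33 * (k : ℝ)) with hg
  set u : ℝ := ε * g ^ k / 32 with hu
  have hg0 : 0 < g := by positivity
  have hg1 : g ≤ 1 := NX.g_le_one ε k hε hε1 hkk
  have hu0 : 0 < u := by positivity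
  have hcu : (1 / (32 * (2 ^ 33 * (k : ℝ)) ^ k)) ^ (k + 2) * ε ^ (((6 * k + 1) * (k + 2) : ℕ) : ℝ)
      = u ^ (k + 2) := by
    rw [Real.rpow_natCast, pow_mul, ← mul_pow]
    congr 1
    rw [hu, hg, div_pow, pow_succ, ← pow_mul]
    field_simp
    ring
  rw [hcu, ← mul_pow] at hN
  have hux : 1 < u * n := by
    by_contra hcon
    push Not at hcon
    have : (u * (n : ℝ)) ^ (k + 2) ≤ 1 := pow_le_one₀ (by positivity) hcon
    linarith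
  have hu32 : 32 < ε * n * g ^ k := by
    have : u * n = ε * n * g ^ k / 32 := by rw [hu]; ring
    rw [this] at hux
    linarith
  have hgk1 : g ^ k ≤ 1 := pow_le_one₀ hg0.le hg1
  have hu1 : u ≤ 1 := by
    have : ε * g ^ k ≤ 1 * 1 := mul_le_mul hε1.le hgk1 (by positivity) zero_le_one
    rw [hu]; linarith
  have hNb : (cntX A k : ℝ) ≤ ε ^ 2 * g ^ (3 * k) * (n : ℝ) ^ (k + 2) / 2048 := by
    have a1 : u ^ (k + 2) ≤ u ^ 4 := pow_le_pow_of_le_one hu0.le hu1 (by omega)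
    have a2 : u ^ 4 = ε ^ 4 * g ^ (4 * k) / 1048576 := by
      rw [hu, div_pow, mul_pow, ← pow_mul]
      congr 2
      · ring_nf
      · norm_num
    have a3 : ε ^ 4 ≤ ε ^ 2 := pow_le_pow_of_le_one hε.le hε1.le (by norm_num)
    have a4 : g ^ (4 * k) ≤ g ^ (3 * k) := pow_le_pow_of_le_one hg0.le hg1 (by omega)
    have a5 : ε ^ 4 * g ^ (4 * k) ≤ ε ^ 2 * g ^ (3 * k) :=
      mul_le_mul a3 a4 (by positivity) (by positivity)
    have a6 : 0 ≤ ε ^ 2 * g ^ (3 * k) := by positivity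
    have a7 : u ^ (k + 2) ≤ ε ^ 2 * g ^ (3 * k) / 2048 := by
      rw [a2] at a1
      linarith
    have a8 : u ^ (k + 2) * (n : ℝ) ^ (k + 2) ≤ ε ^ 2 * g ^ (3 * k) / 2048 * (n : ℝ) ^ (k + 2) :=
      mul_le_mul_of_nonneg_right a7 (by positivity)
    rw [mul_pow] at hN
    have a9 : ε ^ 2 * g ^ (3 * k) / 2048 * (n : ℝ) ^ (k + 2)
        = ε ^ 2 * g ^ (3 * k) * (n : ℝ) ^ (k + 2) / 2048 := by ring
    linarith
  obtain ⟨M, v, T, κ, hM, hv, hT, hκ, hTx, hM1, hM2, hv1, hv2, hT1, hT2, hκ1, hκ2⟩ :=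
    NX.paramsX k (by omega) ε n hε hε1 hx hu32
  have hMR : (0 : ℝ) < M := by exact_mod_cast hM
  have hvR : (0 : ℝ) < v := by exact_mod_cast hv
  have hTR : (0 : ℝ) < T := by exact_mod_cast hT
  have hκR : (0 : ℝ) < κ := by exact_mod_cast hκ
  have hMg : (M : ℝ) * g ≤ 1 := by
    have : (M : ℝ) * g = ε ^ 6 * M / (2 ^ 33 * (k : ℝ)) := by rw [hg]; ring
    rw [this, div_le_one (by positivity)]
    exact hM2
  have hgT : g * n ≤ T := by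
    have h1 := NX.g_le_th ε k hε hε1 hkk
    have h2 : g * (n : ℝ) ≤ ε ^ 4 / (2 ^ 22 * (k : ℝ)) / 2 * n := mul_le_mul_of_nonneg_right h1 hx.le
    have h3 : ε ^ 4 / (2 ^ 22 * (k : ℝ)) / 2 * n = ε ^ 4 / (2 ^ 22 * (k : ℝ)) * n / 2 := by ring
    linarith
  have s1 := NX.t1 ε n T v hx hvR (NX.ca ε n k T v hε hε1 hx hkk hv2 hT1)
  have s2 := NX.t2 ε n M T v hε hx hvR hMR hTR (NX.cb ε n k M T v hε hx hkk hMR hv2 hT2 hM1)
  have s3 := NX.t3 ε n k M T v hx hvR (NX.cc ε n k M T v hε hx hkk hMR hTR hv2 hT1 hM2)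
  have s4 := NX.t4 k ε n (cntX A k) T v hx hvR hTR (NX.cd k ε n (cntX A k) T v g hε hx hg0 hg1 hv2 hgT hNb)
  have s5 := NX.t5 k ε n (cntX A k) M κ hε hx hκR
    (NX.ce k ε n (cntX A k) M κ g hε hx hg0 hMR hMg hκ2 hNb)
  have hlam : 0 < ε * (n : ℝ) ^ 2 / (4 * (κ : ℝ) ^ 2) := by positivity
  have hfin : ε * (n : ℝ) ^ 2 / 4 < ε * (n : ℝ) ^ 2 / (4 * (κ : ℝ) ^ 2) * ((κ : ℝ) * κ + 1) := by
    have e1 : ε * (n : ℝ) ^ 2 / (4 * (κ : ℝ) ^ 2) * ((κ : ℝ) * κ + 1)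
        = ε * (n : ℝ) ^ 2 / 4 + ε * (n : ℝ) ^ 2 / (4 * (κ : ℝ) ^ 2) := by
      field_simp
    rw [e1]
    linarith
  have hY : ((n : ℝ) ^ 2 * (T + n / (1 + M * T / n) + 3 * k * M * (T : ℝ) ^ 2 / n)
        + 2 * n * cntX A k / (T : ℝ) ^ k) / v
        + ε * (n : ℝ) ^ 2 / (4 * (κ : ℝ) ^ 2) * ((M : ℝ) ^ k * cntX A k / (n : ℝ) ^ k)
        ≤ ε * (n : ℝ) ^ 2 / 4 := by
    rw [mul_add, mul_add, add_div, add_div, add_div]
    linarith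
  obtain ⟨B, hBf, hBd⟩ := X_abstract hn A k hk M κ v T hκ hv (by exact_mod_cast hTx) hT
    (ε * (n : ℝ) ^ 2 / (4 * (κ : ℝ) ^ 2)) (ε * (n : ℝ) ^ 2 / 4) hlam hY hfin
  refine ⟨B, hBf, lt_of_le_of_lt hBd ?_⟩
  have f1 : (n : ℝ) * ((M : ℝ) ^ k * (2 * κ)) ≤ n * (ε * n / 8) := by
    apply mul_le_mul_of_nonneg_left _ hx.le
    have : (M : ℝ) ^ k * (2 * κ) = 16 * (M : ℝ) ^ k * κ / 8 := by ring
    rw [this]
    linarith
  have f2 : (n : ℝ) * v ≤ n * (ε * n / 8) := mul_le_mul_of_nonneg_left hv1 hx.le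
  have f3 : 0 < ε * (n : ℝ) ^ 2 := by positivity
  have f4 : (n : ℝ) * (ε * n / 8) = ε * (n : ℝ) ^ 2 / 8 := by ring
  linarith

end Vale.Agent.Lib.P037X
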