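import Vale.Agent.Lib.P037X.XDefs

namespace Vale.Agent.Lib.P037X
open Finset
variable {n : ℕ}

theorem key_injective (A : Fin n → Fin n → Bool) (Rep : Finset (Fin n)) (y : Fin n) :
    Function.Injective (key A Rep y) := by
  intro c d h
  unfold key at h
  have h2 := toLex.injective h
  exact (Prod.mk.inj h2).2

/-- `Prod.Lex.toLex_lt_toLex` (or `Prod.Lex.lt_iff`) and
`Finset.Colex.toColex_lt_toColex_iff_exists_forall_lt`; `Hist c = Hist d` iff the columns agree on
all sampled rows above `y`. -/
theorem key_lt_iff (A : Fin n → Fin n → Bool) (Rep : Finset (Fin n)) (y c d : Fin n) :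
    key A Rep y c < key A Rep y d ↔
      (∃ x ∈ Rep, x < y ∧ A x c = false ∧ A x d = true ∧
        ∀ x' ∈ Rep, x' < y → A x' c = true → A x' d = false → x' < x) ∨
      ((∀ x ∈ Rep, x < y → A x c = A x d) ∧ c < d) := by
  unfold key
  rw [Prod.Lex.toLex_lt_toLex]
  simp only [toColex_inj]
  rw [Colex.toColex_lt_toColex_iff_exists_forall_lt]
  have e1 : (∃ a ∈ Hist A Rep y d, a ∉ Hist A Rep y c ∧
      ∀ b ∈ Hist A Rep y c, b ∉ Hist A Rep y d → b < a) ↔
      (∃ x ∈ Rep, x < y ∧ A x c = false ∧ A x d = true ∧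
        ∀ x' ∈ Rep, x' < y → A x' c = true → A x' d = false → x' < x) := by
    constructor
    · rintro ⟨a, ha, hac, hb⟩
      simp only [Hist, mem_filter] at ha hac
      refine ⟨a, ha.1, ha.2.1, ?_, ha.2.2, ?_⟩
      · by_contra hcon
        exact hac ⟨ha.1, ha.2.1, by simpa using hcon⟩
      · intro x' h1 h2 h3 h4
        apply hb x'
        · simp only [Hist, mem_filter]; exact ⟨h1, h2, h3⟩
        · simp only [Hist, mem_filter]
          rintro ⟨_, _, h5⟩
          rw [h4] at h5
          exact absurd h5 (by simp)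
    · rintro ⟨x, hx, hxy, h1, h2, h3⟩
      refine ⟨x, ?_, ?_, ?_⟩
      · simp only [Hist, mem_filter]; exact ⟨hx, hxy, h2⟩
      · simp only [Hist, mem_filter]
        rintro ⟨_, _, h5⟩
        rw [h1] at h5
        exact absurd h5 (by simp)
      · intro b hb hbd
        simp only [Hist, mem_filter] at hb hbd
        apply h3 b hb.1 hb.2.1 hb.2.2
        by_contra hcon
        exact hbd ⟨hb.1, hb.2.1, by simpa using hcon⟩
  have e2 : Hist A Rep y c = Hist A Rep y d ↔ (∀ x ∈ Rep, x < y → A x c = A x d) := by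
    constructor
    · intro h x hx hxy
      have h1 : x ∈ Hist A Rep y c ↔ x ∈ Hist A Rep y d := by rw [h]
      simp only [Hist, mem_filter, hx, hxy, true_and] at h1
      cases hc : A x c <;> cases hd : A x d <;> simp_all
    · intro h
      ext x
      simp only [Hist, mem_filter]
      constructor
      · rintro ⟨h1, h2, h3⟩
        exact ⟨h1, h2, by rw [← h x h1 h2]; exact h3⟩
      · rintro ⟨h1, h2, h3⟩
        exact ⟨h1, h2, by rw [h x h1 h2]; exact h3⟩
  rw [e1, e2]

end Vale.Agent.Lib.P037X
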