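import Vale.Agent.Lib.P037X.XDefs

namespace Vale.Agent.Lib.P037X
open Finset
variable {n : ℕ}

theorem rkU_lt (D : Finset (Fin n)) {t1 t2 : Fin n} (h2 : t2 ∈ D) (h : t1 < t2) :
    #{t' ∈ D | t2 < t'} < #{t' ∈ D | t1 < t'} := by
  apply Finset.card_lt_card
  constructor
  · intro z hz
    simp only [Finset.mem_filter] at hz ⊢
    exact ⟨hz.1, h.trans hz.2⟩
  · intro hsub
    have : t2 ∈ ({t' ∈ D | t2 < t'} : Finset (Fin n)) := hsub (by simp [h2, h])
    simp at this

theorem rkU_inj (D : Finset (Fin n)) : Set.InjOn (fun t => #{t' ∈ D | t < t'}) (D : Set (Fin n)) := by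
  intro t1 h1 t2 h2 e
  rcases lt_trichotomy t1 t2 with h | h | h
  · have := rkU_lt D (Finset.mem_coe.mp h2) h
    simp only at e
    omega
  · exact h
  · have := rkU_lt D (Finset.mem_coe.mp h1) h
    simp only at e
    omega

theorem topK_le (D : Finset (Fin n)) (T : ℕ) : #{t ∈ D | #{t' ∈ D | t < t'} < T} ≤ T := by
  have := Finset.card_le_card_of_injOn (s := {t ∈ D | #{t' ∈ D | t < t'} < T}) (t := Finset.range T)
    (fun t => #{t' ∈ D | t < t'})
    (by
      intro t ht
      have ht' := Finset.mem_coe.mp ht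
      simp only [Finset.mem_filter] at ht'
      exact Finset.mem_coe.mpr (Finset.mem_range.mpr ht'.2))
    ((rkU_inj D).mono (by
      intro t ht
      have ht' := Finset.mem_coe.mp ht
      simp only [Finset.mem_filter] at ht'
      exact Finset.mem_coe.mpr ht'.1))
  simpa using this

theorem topK_ge (D : Finset (Fin n)) (T : ℕ) (t0 : Fin n) (h0 : T ≤ #{t' ∈ D | t0 < t'}) :
    T ≤ #{t ∈ D | #{t' ∈ D | t < t'} < T} := by
  set U : Finset (Fin n) := {t' ∈ D | t0 < t'} with hU
  have hUD : U ⊆ D := Finset.filter_subset _ _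
  have himg : U.image (fun t => #{t' ∈ D | t < t'}) = Finset.range #U := by
    apply Finset.eq_of_subset_of_card_le
    · intro j hj
      obtain ⟨t, ht, rfl⟩ := Finset.mem_image.mp hj
      rw [Finset.mem_range]
      apply Finset.card_lt_card
      constructor
      · intro z hz
        simp only [Finset.mem_filter, hU] at hz ht ⊢
        exact ⟨hz.1, ht.2.trans hz.2⟩
      · intro hsub
        have := hsub ht
        simp at this
    · rw [Finset.card_range, Finset.card_image_of_injOn]
      exact (rkU_inj D).mono (by intro t ht; exact Finset.mem_coe.mpr (hUD (Finset.mem_coe.mp ht)))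
  have hsub : Finset.range T ⊆ ({t ∈ D | #{t' ∈ D | t < t'} < T} : Finset (Fin n)).image
      (fun t => #{t' ∈ D | t < t'}) := by
    intro j hj
    have hj' : j < T := Finset.mem_range.mp hj
    have : j ∈ Finset.range #U := Finset.mem_range.mpr (lt_of_lt_of_le hj' h0)
    rw [← himg] at this
    obtain ⟨t, ht, rfl⟩ := Finset.mem_image.mp this
    exact Finset.mem_image.mpr ⟨t, by simp only [Finset.mem_filter]; exact ⟨hUD ht, hj'⟩, rfl⟩
  calc T = #(Finset.range T) := (Finset.card_range T).symm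
    _ ≤ _ := Finset.card_le_card hsub
    _ ≤ _ := Finset.card_image_le

theorem rkL_lt (D : Finset (Fin n)) {t1 t2 : Fin n} (h1 : t1 ∈ D) (h : t1 < t2) :
    #{t' ∈ D | t' < t1} < #{t' ∈ D | t' < t2} := by
  apply Finset.card_lt_card
  constructor
  · intro z hz
    simp only [Finset.mem_filter] at hz ⊢
    exact ⟨hz.1, hz.2.trans h⟩
  · intro hsub
    have : t1 ∈ ({t' ∈ D | t' < t1} : Finset (Fin n)) := hsub (by simp [h1, h])
    simp at this

theorem botK_le (D : Finset (Fin n)) (T : ℕ) : #{t ∈ D | #{t' ∈ D | t' < t} < T} ≤ T := by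
  have := Finset.card_le_card_of_injOn (s := {t ∈ D | #{t' ∈ D | t' < t} < T}) (t := Finset.range T)
    (fun t => #{t' ∈ D | t' < t})
    (by
      intro t ht
      have ht' := Finset.mem_coe.mp ht
      simp only [Finset.mem_filter] at ht'
      exact Finset.mem_coe.mpr (Finset.mem_range.mpr ht'.2))
    (by
      intro t1 h1 t2 h2 e
      have h1' := Finset.mem_coe.mp h1
      have h2' := Finset.mem_coe.mp h2
      simp only [Finset.mem_filter] at h1' h2'
      simp only at e
      rcases lt_trichotomy t1 t2 with h | h | h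
      · have := rkL_lt D h1'.1 h
        omega
      · exact h
      · have := rkL_lt D h2'.1 h
        omega)
  simpa using this

/-- differing rows below `y`. -/
def Dy (A : Fin n → Fin n → Bool) (y c d : Fin n) : Finset (Fin n) := {t | t < y ∧ A t c ≠ A t d}

theorem rk_eq (A : Fin n → Fin n → Bool) (y c d t : Fin n) :
    ({t' : Fin n | t < t' ∧ t' < y ∧ A t' c ≠ A t' d} : Finset (Fin n)) = {t' ∈ Dy A y c d | t < t'} := by
  ext z
  simp only [Dy, Finset.mem_filter, Finset.mem_univ, true_and]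
  tauto

theorem Wn_eq (A : Fin n → Fin n → Bool) (T : ℕ) (y c d : Fin n) :
    Wn A T y c d = {t ∈ Dy A y c d | #{t' ∈ Dy A y c d | t < t'} < T} := by
  ext z
  simp only [Wn, Finset.mem_filter, Finset.mem_univ, true_and, rk_eq]
  simp only [Dy, Finset.mem_filter, Finset.mem_univ, true_and]
  tauto

theorem card_Wn_le (A : Fin n → Fin n → Bool) (T : ℕ) (y c d : Fin n) : #(Wn A T y c d) ≤ T := by
  rw [Wn_eq]
  exact topK_le _ _

theorem card_Wn_ge (A : Fin n → Fin n → Bool) (T : ℕ) (y c d t : Fin n) (ht : t < y)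
    (hd : A t c ≠ A t d) (hn : t ∉ Wn A T y c d) : T ≤ #(Wn A T y c d) := by
  rw [Wn_eq] at hn ⊢
  apply topK_ge _ _ t
  by_contra hcon
  apply hn
  simp only [Finset.mem_filter]
  refine ⟨?_, not_le.mp hcon⟩
  simp only [Dy, Finset.mem_filter, Finset.mem_univ, true_and]
  exact ⟨ht, hd⟩

theorem early_Wn (A : Fin n → Fin n → Bool) (T : ℕ) (c d : Fin n) :
    #{y : Fin n | A y c ≠ A y d ∧ #(Wn A T y c d) < T} ≤ T := by
  refine le_trans (Finset.card_le_card ?_) (botK_le ({y : Fin n | A y c ≠ A y d} : Finset (Fin n)) T)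
  intro y hy
  simp only [Finset.mem_filter, Finset.mem_univ, true_and] at hy ⊢
  refine ⟨hy.1, lt_of_le_of_lt (Finset.card_le_card ?_) hy.2⟩
  intro t ht
  simp only [Finset.mem_filter, Finset.mem_univ, true_and] at ht
  by_contra hn
  have := card_Wn_ge A T y c d t ht.2 ht.1 hn
  omega

theorem card_after_le (A : Fin n → Fin n → Bool) (T : ℕ) (x c d : Fin n) :
    #{y : Fin n | A y c ≠ A y d ∧ x ∈ Wn A T y c d} ≤ T := by
  refine le_trans (Finset.card_le_card ?_)
    (botK_le ({y : Fin n | x < y ∧ A y c ≠ A y d} : Finset (Fin n)) T)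
  intro y hy
  simp only [Finset.mem_filter, Finset.mem_univ, true_and, Wn] at hy ⊢
  refine ⟨⟨hy.2.1, hy.1⟩, lt_of_le_of_lt (Finset.card_le_card ?_) hy.2.2.2⟩
  intro t ht
  simp only [Finset.mem_filter, Finset.mem_univ, true_and] at ht ⊢
  exact ⟨ht.1.1, ht.2, ht.1.2⟩

theorem Wn_up (A : Fin n → Fin n → Bool) (T : ℕ) (y c d t t' : Fin n) (ht : t ∈ Wn A T y c d)
    (h1 : t < t') (h2 : t' < y) (hd : A t' c ≠ A t' d) : t' ∈ Wn A T y c d := by
  simp only [Finset.mem_filter, Finset.mem_univ, true_and, Wn] at ht ⊢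
  refine ⟨h2, hd, lt_of_le_of_lt (Finset.card_le_card ?_) ht.2.2⟩
  intro z hz
  simp only [Finset.mem_filter, Finset.mem_univ, true_and] at hz ⊢
  exact ⟨h1.trans hz.1, hz.2⟩

theorem Wn_symm (A : Fin n → Fin n → Bool) (T : ℕ) (y c d : Fin n) :
    Wn A T y c d = Wn A T y d c := by
  unfold Wn
  simp only [ne_comm (a := A _ c) (b := A _ d)]

theorem Opp_symm (A : Fin n → Fin n → Bool) (T : ℕ) (c d : Fin n) : Opp A T c d = Opp A T d c := by
  unfold Opp
  congr 1
  ext p
  simp only [Finset.mem_filter, Finset.mem_univ, true_and]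
  rw [Wn_symm A T p.2 d c]
  constructor
  · rintro ⟨h1, h2, h3⟩
    have h4 : A p.1 c ≠ A p.1 d := by
      simp only [Finset.mem_filter, Finset.mem_univ, true_and, Wn] at h1
      exact h1.2.1
    refine ⟨h1, h2.symm, ?_⟩
    revert h2 h3 h4
    cases A p.1 c <;> cases A p.1 d <;> cases A p.2 c <;> cases A p.2 d <;> simp
  · rintro ⟨h1, h2, h3⟩
    have h4 : A p.1 c ≠ A p.1 d := by
      simp only [Finset.mem_filter, Finset.mem_univ, true_and, Wn] at h1
      exact h1.2.1
    refine ⟨h1, h2.symm, ?_⟩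
    revert h2 h3 h4
    cases A p.1 c <;> cases A p.1 d <;> cases A p.2 c <;> cases A p.2 d <;> simp

end Vale.Agent.Lib.P037X
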