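import Vale.Agent.Lib.P037X.Seg
import Vale.Agent.Lib.P037X.Near

namespace Vale.Agent.Lib.P037X
open Finset
variable {n : ℕ}

/-- pairs across a boundary `b`: `x < b ≤ y`, `x ∈ Wn y`: `x` has fewer than `T` differing rows in `(x,b)`,
`y` has fewer than `T` differing rows in `[b,y)`: at most `T` choices each (injective ranks). -/
theorem cross_le (A : Fin n → Fin n → Bool) (T b : ℕ) (c d : Fin n) :
    #{p : Fin n × Fin n | (p.1 : ℕ) < b ∧ b ≤ (p.2 : ℕ) ∧ p.1 ∈ Wn A T p.2 c d ∧ A p.2 c ≠ A p.2 d}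
      ≤ T * T := by
  set D1 : Finset (Fin n) := {t : Fin n | (t : ℕ) < b ∧ A t c ≠ A t d} with hD1
  set D2 : Finset (Fin n) := {t : Fin n | b ≤ (t : ℕ) ∧ A t c ≠ A t d} with hD2
  have hsub : ({p : Fin n × Fin n | (p.1 : ℕ) < b ∧ b ≤ (p.2 : ℕ) ∧ p.1 ∈ Wn A T p.2 c d ∧
      A p.2 c ≠ A p.2 d} : Finset (Fin n × Fin n))
      ⊆ ({t ∈ D1 | #{t' ∈ D1 | t < t'} < T} : Finset (Fin n)) ×ˢ
        ({t ∈ D2 | #{t' ∈ D2 | t' < t} < T} : Finset (Fin n)) := by
    intro p hp
    simp only [mem_filter, mem_univ, true_and, Wn] at hp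
    obtain ⟨h1, h2, ⟨h3, h4, h5⟩, h6⟩ := hp
    rw [mem_product]
    constructor
    · simp only [mem_filter, mem_univ, true_and, hD1]
      refine ⟨⟨h1, h4⟩, lt_of_le_of_lt (card_le_card ?_) h5⟩
      intro z hz
      simp only [mem_filter, mem_univ, true_and] at hz ⊢
      refine ⟨hz.2, ?_, hz.1.2⟩
      rw [Fin.lt_def]
      omega
    · simp only [mem_filter, mem_univ, true_and, hD2]
      refine ⟨⟨h2, h6⟩, lt_of_le_of_lt (card_le_card ?_) h5⟩
      intro z hz
      simp only [mem_filter, mem_univ, true_and] at hz ⊢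
      refine ⟨?_, hz.2, hz.1.2⟩
      rw [Fin.lt_def]
      omega
  refine (card_le_card hsub).trans ?_
  rw [card_product]
  exact Nat.mul_le_mul (topK_le D1 T) (botK_le D2 T)

theorem card_pairs_le {α β : Type*} [DecidableEq α] [DecidableEq β] (S : Finset (α × β))
    (E : Finset α) (F : α → Finset β) (N : ℕ) (h : ∀ p ∈ S, p.1 ∈ E ∧ p.2 ∈ F p.1)
    (hF : ∀ x ∈ E, #(F x) ≤ N) : #S ≤ #E * N := by
  have hsub : S ⊆ E.biUnion fun x => (F x).image fun y => (x, y) := by
    intro p hp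
    rw [mem_biUnion]
    exact ⟨p.1, (h p hp).1, mem_image.2 ⟨p.2, (h p hp).2, rfl⟩⟩
  calc #S ≤ #(E.biUnion fun x => (F x).image fun y => (x, y)) := card_le_card hsub
    _ ≤ ∑ x ∈ E, #((F x).image fun y => (x, y)) := card_biUnion_le
    _ ≤ ∑ _x ∈ E, N := sum_le_sum fun x hx => card_image_le.trans (hF x hx)
    _ = #E * N := by simp

theorem card_pairs_le' {α β : Type*} [DecidableEq α] [DecidableEq β] (S : Finset (α × β))
    (E : Finset β) (F : β → Finset α) (N : ℕ) (h : ∀ p ∈ S, p.2 ∈ E ∧ p.1 ∈ F p.2)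
    (hF : ∀ x ∈ E, #(F x) ≤ N) : #S ≤ #E * N := by
  have hsub : S ⊆ E.biUnion fun y => (F y).image fun x => (x, y) := by
    intro p hp
    rw [mem_biUnion]
    exact ⟨p.2, (h p hp).1, mem_image.2 ⟨p.1, (h p hp).2, rfl⟩⟩
  calc #S ≤ #(E.biUnion fun y => (F y).image fun x => (x, y)) := card_le_card hsub
    _ ≤ ∑ y ∈ E, #((F y).image fun x => (x, y)) := card_biUnion_le
    _ ≤ ∑ _y ∈ E, N := sum_le_sum fun y hy => card_image_le.trans (hF y hy)
    _ = #E * N := by simp

theorem exists_segment (e : ℕ → ℕ) (k t : ℕ) (h0 : e 0 ≤ t) (hk : t < e k) :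
    ∃ j < k, e j ≤ t ∧ t < e (j + 1) := by
  induction k with
  | zero => omega
  | succ k ih =>
    by_cases h : t < e k
    · obtain ⟨j, hj, h1, h2⟩ := ih h
      exact ⟨j, by omega, h1, h2⟩
    · exact ⟨k, by omega, by omega, hk⟩

theorem val_of_not_shows (A : Fin n → Fin n → Bool) (t c d : Fin n) (b : Bool)
    (hd : A t c ≠ A t d) (hs : ¬ Shows A t c d b) : A t c = !b := by
  unfold Shows at hs
  cases h1 : A t c <;> cases h2 : A t d <;> cases b <;> simp_all

/-- LEMMA D.  With the segments `e`: call `t` exceptional if `e j ≤ t < e (j+1)` and `Shows t (sy j)` for some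
`j < k` (at most `k T` rows).  A pair of `Opp` has (a) `p.1` exceptional: `k T * T` by `card_after_le`;
(b) `p.2` exceptional: `k T * T` by `card_Wn_le`; (c) neither: `p.1` in segment `j` shows `!sy j`, `p.2` in segment
`j'` shows `!sy j'`, opposite symbols, so `j < j'` and the pair crosses the boundary `e (j+1)`, `1 ≤ j+1 < k`:
`k * T^2` by `cross_le`. -/
theorem opp_le (A : Fin n → Fin n → Bool) (k T : ℕ) (c d : Fin n) (hK : Kp A k c d < T ^ k) :
    Opp A T c d ≤ 3 * k * T ^ 2 := by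
  obtain ⟨e, e0, emono, ek, eT⟩ := segments A k T c d hK
  have eM : Monotone e := monotone_nat_of_le_succ emono
  set Exc : Finset (Fin n) := (range k).biUnion fun j =>
    ({t : Fin n | e j ≤ (t : ℕ) ∧ (t : ℕ) < e (j + 1) ∧ Shows A t c d (sy j)} : Finset (Fin n))
    with hExc
  have cExc : #Exc ≤ k * T := by
    calc #Exc ≤ ∑ j ∈ range k, #({t : Fin n | e j ≤ (t : ℕ) ∧ (t : ℕ) < e (j + 1) ∧
          Shows A t c d (sy j)} : Finset (Fin n)) := card_biUnion_le
      _ ≤ ∑ _j ∈ range k, T := sum_le_sum fun j hj => eT j (mem_range.1 hj)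
      _ = k * T := by simp
  set S : Finset (Fin n × Fin n) := {p : Fin n × Fin n | p.1 ∈ Wn A T p.2 c d ∧ A p.2 c ≠ A p.2 d ∧
    A p.1 c ≠ A p.2 c} with hS
  set Sa : Finset (Fin n × Fin n) := S.filter fun p => p.1 ∈ Exc with hSa
  set Sb : Finset (Fin n × Fin n) := S.filter fun p => p.2 ∈ Exc with hSb
  set Sc : Finset (Fin n × Fin n) := (range k).biUnion fun j =>
    ({p : Fin n × Fin n | (p.1 : ℕ) < e (j + 1) ∧ e (j + 1) ≤ (p.2 : ℕ) ∧ p.1 ∈ Wn A T p.2 c d ∧
      A p.2 c ≠ A p.2 d} : Finset (Fin n × Fin n)) with hSc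
  have ca : #Sa ≤ k * T * T := by
    refine (card_pairs_le Sa Exc (fun x => {y : Fin n | A y c ≠ A y d ∧ x ∈ Wn A T y c d}) T ?_
      (fun x _ => card_after_le A T x c d)).trans (Nat.mul_le_mul_right _ cExc)
    intro p hp
    simp only [hSa, hS, mem_filter, mem_univ, true_and] at hp ⊢
    exact ⟨hp.2, hp.1.2.1, hp.1.1⟩
  have cb : #Sb ≤ k * T * T := by
    refine (card_pairs_le' Sb Exc (fun y => Wn A T y c d) T ?_
      (fun y _ => card_Wn_le A T y c d)).trans (Nat.mul_le_mul_right _ cExc)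
    intro p hp
    simp only [hSb, hS, mem_filter, mem_univ, true_and] at hp ⊢
    exact ⟨hp.2, hp.1.1⟩
  have cc : #Sc ≤ k * (T * T) := by
    calc #Sc ≤ ∑ j ∈ range k, #({p : Fin n × Fin n | (p.1 : ℕ) < e (j + 1) ∧ e (j + 1) ≤ (p.2 : ℕ) ∧
          p.1 ∈ Wn A T p.2 c d ∧ A p.2 c ≠ A p.2 d} : Finset (Fin n × Fin n)) := card_biUnion_le
      _ ≤ ∑ _j ∈ range k, T * T := sum_le_sum fun j _ => cross_le A T (e (j + 1)) c d
      _ = k * (T * T) := by simp
  have hsub : S ⊆ Sa ∪ Sb ∪ Sc := by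
    intro p hp
    by_cases ha : p.1 ∈ Exc
    · exact mem_union_left _ (mem_union_left _ (mem_filter.2 ⟨hp, ha⟩))
    by_cases hb : p.2 ∈ Exc
    · exact mem_union_left _ (mem_union_right _ (mem_filter.2 ⟨hp, hb⟩))
    refine mem_union_right _ ?_
    have hp' := hp
    simp only [hS, mem_filter, mem_univ, true_and] at hp'
    obtain ⟨hW, hdy, hopp⟩ := hp'
    have hW' := hW
    simp only [Wn, mem_filter, mem_univ, true_and] at hW'
    obtain ⟨hxy, hdx, -⟩ := hW'
    obtain ⟨j, hj, j1, j2⟩ := exists_segment e k p.1 (by omega) (lt_of_lt_of_le p.1.2 ek)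
    obtain ⟨j', hj', j1', j2'⟩ := exists_segment e k p.2 (by omega) (lt_of_lt_of_le p.2.2 ek)
    have nx : ¬ Shows A p.1 c d (sy j) := by
      intro hs
      apply ha
      rw [hExc, mem_biUnion]
      exact ⟨j, mem_range.2 hj, by simp only [mem_filter, mem_univ, true_and]; exact ⟨j1, j2, hs⟩⟩
    have ny : ¬ Shows A p.2 c d (sy j') := by
      intro hs
      apply hb
      rw [hExc, mem_biUnion]
      exact ⟨j', mem_range.2 hj', by simp only [mem_filter, mem_univ, true_and]; exact ⟨j1', j2', hs⟩⟩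
    have vx := val_of_not_shows A p.1 c d _ hdx nx
    have vy := val_of_not_shows A p.2 c d _ hdy ny
    have hne : j ≠ j' := by
      intro h
      apply hopp
      rw [vx, vy, h]
    have hxy' : (p.1 : ℕ) < (p.2 : ℕ) := hxy
    have hlt : j < j' := by
      by_contra hcon
      have h1 : j' + 1 ≤ j := by omega
      have := eM h1
      omega
    have h2 : e (j + 1) ≤ e j' := eM hlt
    rw [hSc, mem_biUnion]
    refine ⟨j, mem_range.2 hj, ?_⟩
    simp only [mem_filter, mem_univ, true_and]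
    exact ⟨j2, by omega, hW, hdy⟩
  have hfin : #S ≤ #Sa + #Sb + #Sc :=
    (card_le_card hsub).trans ((card_union_le _ _).trans (Nat.add_le_add_right (card_union_le _ _) _))
  have hO : Opp A T c d = #S := rfl
  rw [hO]
  calc #S ≤ #Sa + #Sb + #Sc := hfin
    _ ≤ k * T * T + k * T * T + k * (T * T) := by omega
    _ = 3 * k * T ^ 2 := by ring

end Vale.Agent.Lib.P037X
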