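import Vale.Agent.Lib.P037X.XDefs

namespace Vale.Agent.Lib.P037X
open Finset
variable {n : ℕ}

open Classical in
/-- GREEDY SEGMENTS, general start `s` and offset `j0`.  Induction on `k`. -/
theorem segments_aux (A : Fin n → Fin n → Bool) (T : ℕ) (c d : Fin n) :
    ∀ (k j0 s : ℕ),
      #{r : Fin k → Fin n | StrictMono r ∧ ∀ i, s ≤ (r i : ℕ) ∧ Shows A (r i) c d (sy (j0 + i))}
        < T ^ k →
      ∃ e : ℕ → ℕ, e 0 = s ∧ (∀ j, e j ≤ e (j + 1)) ∧ n ≤ e k ∧
        ∀ j < k, #{t : Fin n | e j ≤ (t : ℕ) ∧ (t : ℕ) < e (j + 1) ∧ Shows A t c d (sy (j0 + j))} ≤ T := by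
  intro k
  induction k with
  | zero =>
    intro j0 s h
    exfalso
    rw [pow_zero, Nat.lt_one_iff, Finset.card_eq_zero] at h
    have hmem : (fun i : Fin 0 => i.elim0 : Fin 0 → Fin n) ∈ (∅ : Finset (Fin 0 → Fin n)) := by
      rw [← h]
      simp only [mem_filter, mem_univ, true_and]
      exact ⟨fun i => i.elim0, fun i => i.elim0⟩
    simp at hmem
  | succ k ih =>
    intro j0 s h
    set F : Finset (Fin n) := {t : Fin n | s ≤ (t : ℕ) ∧ Shows A t c d (sy j0)} with hF
    by_cases hFT : #F ≤ T
    · refine ⟨fun j => if j = 0 then s else max s n, by simp, ?_, by simp, ?_⟩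
      · intro j
        by_cases hj : j = 0
        · subst hj; simp
        · simp [hj]
      · intro j hj
        by_cases hj0 : j = 0
        · subst hj0
          refine le_trans (card_le_card ?_) hFT
          intro t ht
          simp only [mem_filter, mem_univ, true_and, hF, if_true, add_zero] at ht ⊢
          exact ⟨ht.1, ht.2.2⟩
        · refine le_trans (le_of_eq ?_) (Nat.zero_le T)
          rw [Finset.card_eq_zero, Finset.filter_eq_empty_iff]
          intro t _ ht
          simp only [hj0, if_false, Nat.add_eq_zero_iff, one_ne_zero, and_false] at ht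
          omega
    · push Not at hFT
      set g : ℕ → ℕ := fun u => #(F.filter fun t : Fin n => (t : ℕ) < u) with hg
      have hsn : s ≤ n := by
        by_contra hcon
        have hE : F = ∅ := by
          rw [hF, Finset.filter_eq_empty_iff]
          intro t _ ht
          have := t.2
          omega
        rw [hE] at hFT
        simp at hFT
      have hgs : g s ≤ T := by
        have h0 : g s = 0 := by
          simp only [hg]
          rw [Finset.card_eq_zero, Finset.filter_eq_empty_iff]
          intro t ht ht2
          simp only [hF, mem_filter, mem_univ, true_and] at ht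
          omega
        omega
      set s' := Nat.findGreatest (fun u => g u ≤ T) n with hs'
      have h1 : g s' ≤ T := Nat.findGreatest_spec (P := fun u => g u ≤ T) hsn hgs
      have hss' : s ≤ s' := Nat.le_findGreatest hsn hgs
      have hle : s' ≤ n := Nat.findGreatest_le n
      have hgn : g n = #F := by
        simp only [hg]
        congr 1
        apply Finset.filter_true_of_mem
        intro t _
        exact t.2
      have hlt : s' < n := by
        rcases Nat.lt_or_ge s' n with h' | h'
        · exact h'
        · have h'' : s' = n := le_antisymm hle h'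
          rw [h'', hgn] at h1
          omega
      have h2 : ¬ g (s' + 1) ≤ T :=
        Nat.findGreatest_is_greatest (P := fun u => g u ≤ T) (Nat.lt_succ_self s') hlt
      have h3 : g (s' + 1) ≤ g s' + 1 := by
        have hsub : (F.filter fun t : Fin n => (t : ℕ) < s' + 1) ⊆
            (F.filter fun t : Fin n => (t : ℕ) < s') ∪ (univ.filter fun t : Fin n => (t : ℕ) = s') := by
          intro t ht
          simp only [mem_filter, mem_union, mem_univ, true_and] at ht ⊢
          rcases Nat.lt_or_ge (t : ℕ) s' with h' | h'
          · exact Or.inl ⟨ht.1, h'⟩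
          · exact Or.inr (by omega)
        have hone : #(univ.filter fun t : Fin n => (t : ℕ) = s') ≤ 1 := by
          apply card_le_one.mpr
          intro a ha b hb
          simp only [mem_filter, mem_univ, true_and] at ha hb
          exact Fin.ext (ha.trans hb.symm)
        calc g (s' + 1) ≤ _ := card_le_card hsub
          _ ≤ _ := card_union_le _ _
          _ ≤ g s' + 1 := by simp only [hg]; omega
      have h4 : g s' = T := by omega
      have hC : #{r : Fin k → Fin n | StrictMono r ∧
          ∀ i, s' ≤ (r i : ℕ) ∧ Shows A (r i) c d (sy (j0 + 1 + i))} < T ^ k := by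
        set C' : Finset (Fin k → Fin n) := {r : Fin k → Fin n | StrictMono r ∧
          ∀ i, s' ≤ (r i : ℕ) ∧ Shows A (r i) c d (sy (j0 + 1 + i))} with hC'
        have hinj : #((F.filter fun t : Fin n => (t : ℕ) < s') ×ˢ C') ≤
            #{r : Fin (k + 1) → Fin n | StrictMono r ∧
              ∀ i, s ≤ (r i : ℕ) ∧ Shows A (r i) c d (sy (j0 + i))} := by
          apply Finset.card_le_card_of_injOn (fun p => (Fin.cons p.1 p.2 : Fin (k + 1) → Fin n))
          · intro p hp
            simp only [coe_product, Set.mem_prod, mem_coe, mem_filter, mem_univ, true_and, hF,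
              hC'] at hp ⊢
            obtain ⟨⟨⟨ht1, ht2⟩, ht3⟩, hr1, hr2⟩ := hp
            refine ⟨?_, ?_⟩
            · intro a b hab
              induction a using Fin.cases with
              | zero =>
                induction b using Fin.cases with
                | zero => exact absurd hab (lt_irrefl _)
                | succ j =>
                  simp only [Fin.cons_zero, Fin.cons_succ]
                  rw [Fin.lt_def]
                  have := (hr2 j).1
                  omega
              | succ i =>
                induction b using Fin.cases with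
                | zero => exact absurd hab (Fin.not_lt_zero _)
                | succ j =>
                  simp only [Fin.cons_succ]
                  exact hr1 (Fin.succ_lt_succ_iff.mp hab)
            · intro i
              induction i using Fin.cases with
              | zero =>
                simp only [Fin.cons_zero, Fin.val_zero, add_zero]
                exact ⟨ht1, ht2⟩
              | succ i =>
                simp only [Fin.cons_succ, Fin.val_succ]
                have e1 : j0 + ((i : ℕ) + 1) = j0 + 1 + i := by omega
                rw [e1]
                exact ⟨hss'.trans (hr2 i).1, (hr2 i).2⟩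
          · intro p _ q _ hpq
            have := Fin.cons_inj.mp hpq
            exact Prod.ext this.1 this.2
        rw [card_product] at hinj
        have h5 : #(F.filter fun t : Fin n => (t : ℕ) < s') = T := h4
        rw [h5] at hinj
        apply Nat.lt_of_mul_lt_mul_left (a := T)
        calc T * #C' ≤ _ := hinj
          _ < T ^ (k + 1) := h
          _ = T * T ^ k := by ring
      obtain ⟨e', he0, hemono, hen, hecard⟩ := ih (j0 + 1) s' hC
      refine ⟨fun j => Nat.casesOn j s e', rfl, ?_, hen, ?_⟩
      · intro j
        cases j with
        | zero => simp only [zero_add]; rw [he0]; exact hss'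
        | succ j => exact hemono j
      · intro j hj
        cases j with
        | zero =>
          refine le_trans (card_le_card ?_) (le_of_eq h4)
          intro t ht
          simp only [mem_filter, mem_univ, true_and, hF, zero_add, add_zero] at ht ⊢
          rw [he0] at ht
          exact ⟨⟨ht.1, ht.2.2⟩, ht.2.1⟩
        | succ j =>
          have := hecard j (by omega)
          have e1 : j0 + (j + 1) = j0 + 1 + j := by omega
          rw [e1]
          exact this

theorem segments (A : Fin n → Fin n → Bool) (k T : ℕ) (c d : Fin n) (hK : Kp A k c d < T ^ k) :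
    ∃ e : ℕ → ℕ, e 0 = 0 ∧ (∀ j, e j ≤ e (j + 1)) ∧ n ≤ e k ∧
      ∀ j < k, #{t : Fin n | e j ≤ (t : ℕ) ∧ (t : ℕ) < e (j + 1) ∧ Shows A t c d (sy j)} ≤ T := by
  classical
  have h := segments_aux A T c d k 0 0 (by
    refine lt_of_le_of_lt (le_of_eq ?_) hK
    unfold Kp IsAlt
    congr 1
    ext r
    simp)
  obtain ⟨e, h0, h1, h2, h3⟩ := h
  refine ⟨e, h0, h1, h2, ?_⟩
  intro j hj
  have := h3 j hj
  simp only [zero_add] at this
  convert this

end Vale.Agent.Lib.P037X
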