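import Vale.Agent.Lib.P037X.Viol
import Vale.Agent.Lib.P037X.OppLe

namespace Vale.Agent.Lib.P037X
open Finset
open Vale.Agent.Lib.P037L (RepOf)
variable {n : ℕ}

/-- number of ordered pairs `(c,d)`, `c ≠ d`, whose increasing version carries at least `T^k` copies. -/
theorem heavy_le (A : Fin n → Fin n → Bool) (k T : ℕ) (hT : 1 ≤ T) :
    (#{p : Fin n × Fin n | (p.1 < p.2 ∧ T ^ k ≤ Kp A k p.1 p.2) ∨ (p.2 < p.1 ∧ T ^ k ≤ Kp A k p.2 p.1)}
      : ℝ) ≤ 2 * cntX A k / (T : ℝ) ^ k := by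
  classical
  set S1 : Finset (Fin n × Fin n) := {p | p.1 < p.2 ∧ T ^ k ≤ Kp A k p.1 p.2} with hS1
  have h1 : #S1 * T ^ k ≤ cntX A k := by
    calc #S1 * T ^ k = ∑ _p ∈ S1, T ^ k := by rw [Finset.sum_const, smul_eq_mul]
      _ ≤ ∑ p ∈ S1, (if p.1 < p.2 then Kp A k p.1 p.2 else 0) := by
          apply Finset.sum_le_sum
          intro p hp
          rw [hS1, Finset.mem_filter] at hp
          rw [if_pos hp.2.1]
          exact hp.2.2
      _ ≤ ∑ p : Fin n × Fin n, (if p.1 < p.2 then Kp A k p.1 p.2 else 0) :=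
          Finset.sum_le_sum_of_subset (Finset.subset_univ _)
      _ = cntX A k := by
          unfold cntX
          rw [Fintype.sum_prod_type]
  have h2 : #{p : Fin n × Fin n | (p.1 < p.2 ∧ T ^ k ≤ Kp A k p.1 p.2) ∨
      (p.2 < p.1 ∧ T ^ k ≤ Kp A k p.2 p.1)} ≤ 2 * #S1 := by
    have hsub : ({p : Fin n × Fin n | (p.1 < p.2 ∧ T ^ k ≤ Kp A k p.1 p.2) ∨
        (p.2 < p.1 ∧ T ^ k ≤ Kp A k p.2 p.1)} : Finset (Fin n × Fin n))
        ⊆ S1 ∪ S1.image Prod.swap := by
      intro p hp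
      rw [Finset.mem_filter] at hp
      rw [Finset.mem_union]
      rcases hp.2 with h | h
      · left
        rw [hS1, Finset.mem_filter]
        exact ⟨Finset.mem_univ _, h⟩
      · right
        rw [Finset.mem_image]
        refine ⟨p.swap, ?_, Prod.swap_swap p⟩
        rw [hS1, Finset.mem_filter]
        exact ⟨Finset.mem_univ _, h⟩
    calc _ ≤ #(S1 ∪ S1.image Prod.swap) := Finset.card_le_card hsub
      _ ≤ #S1 + #(S1.image Prod.swap) := Finset.card_union_le _ _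
      _ ≤ #S1 + #S1 := Nat.add_le_add_left Finset.card_image_le _
      _ = 2 * #S1 := by ring
  have hTR : (0 : ℝ) < (T : ℝ) ^ k := by
    have : (0 : ℝ) < T := by exact_mod_cast hT
    positivity
  rw [le_div_iff₀ hTR]
  have h3 : #{p : Fin n × Fin n | (p.1 < p.2 ∧ T ^ k ≤ Kp A k p.1 p.2) ∨
      (p.2 < p.1 ∧ T ^ k ≤ Kp A k p.2 p.1)} * T ^ k ≤ 2 * cntX A k := by
    calc _ ≤ 2 * #S1 * T ^ k := Nat.mul_le_mul_right _ h2
      _ = 2 * (#S1 * T ^ k) := by ring
      _ ≤ 2 * cntX A k := Nat.mul_le_mul_left _ h1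
  exact_mod_cast h3

/-- AVERAGE OF THE INVERSIONS.  `∑_ω ∑_y inv = ∑_{c,d} ∑_y [A y c = 1, A y d = 0] #{ω | key c < key d}`
(`c = d` gives `0`).  Light pairs: `pair_sum`, `opp_le` (`Opp_symm` if `d < c`), `P037L.pow_sub_le`,
`M n^(M-1) = M n^M / n`.  Heavy pairs (`heavy_le`): each at most `n * n^M`. -/
theorem sum_inv (hn : 0 < n) (A : Fin n → Fin n → Bool) (k M T : ℕ) (hT : T ≤ n) (hT1 : 1 ≤ T) :
    ∑ ω : Fin M → Fin n, ∑ y, (inv A (RepOf ω) y : ℝ) ≤
      ((n : ℝ) ^ 2 * (T + n / (1 + M * T / n) + 3 * k * M * (T : ℝ) ^ 2 / n)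
        + 2 * n * cntX A k / (T : ℝ) ^ k) * (n : ℝ) ^ M := by
  classical
  set S : Finset (Fin n × Fin n) := {p : Fin n × Fin n | (p.1 < p.2 ∧ T ^ k ≤ Kp A k p.1 p.2) ∨
      (p.2 < p.1 ∧ T ^ k ≤ Kp A k p.2 p.1)} with hS
  set G : Fin n × Fin n → ℕ := fun p => ∑ y : Fin n, (if A y p.1 = true ∧ A y p.2 = false then
        #{ω : Fin M → Fin n | key A (RepOf ω) y p.1 < key A (RepOf ω) y p.2} else 0) with hG
  set F : (Fin M → Fin n) → Fin n → Fin n × Fin n → ℕ := fun ω y p =>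
    if key A (RepOf ω) y p.1 < key A (RepOf ω) y p.2 ∧ A y p.1 = true ∧ A y p.2 = false
    then 1 else 0 with hF
  have hinv : ∀ ω y, inv A (RepOf ω) y = ∑ p : Fin n × Fin n, F ω y p := by
    intro ω y
    unfold inv
    rw [Finset.card_filter]
  have hFsum : ∀ p y, ∑ ω : Fin M → Fin n, F ω y p = (if A y p.1 = true ∧ A y p.2 = false then
        #{ω : Fin M → Fin n | key A (RepOf ω) y p.1 < key A (RepOf ω) y p.2} else 0) := by
    intro p y
    by_cases hc : A y p.1 = true ∧ A y p.2 = false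
    · rw [if_pos hc, Finset.card_filter]
      refine Finset.sum_congr rfl fun ω _ => ?_
      simp only [hF]
      by_cases hk : key A (RepOf ω) y p.1 < key A (RepOf ω) y p.2
      · rw [if_pos ⟨hk, hc⟩, if_pos hk]
      · rw [if_neg (fun h => hk h.1), if_neg hk]
    · rw [if_neg hc]
      apply Finset.sum_eq_zero
      intro ω _
      simp only [hF]
      rw [if_neg (fun h => hc h.2)]
  have hswap : ∑ ω : Fin M → Fin n, ∑ y, inv A (RepOf ω) y = ∑ p, G p := by
    calc ∑ ω : Fin M → Fin n, ∑ y, inv A (RepOf ω) y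
        = ∑ ω : Fin M → Fin n, ∑ y, ∑ p, F ω y p := by simp_rw [hinv]
      _ = ∑ ω : Fin M → Fin n, ∑ p, ∑ y, F ω y p :=
          Finset.sum_congr rfl fun ω _ => Finset.sum_comm
      _ = ∑ p, ∑ ω : Fin M → Fin n, ∑ y, F ω y p := Finset.sum_comm
      _ = ∑ p, ∑ y, ∑ ω : Fin M → Fin n, F ω y p :=
          Finset.sum_congr rfl fun p _ => Finset.sum_comm
      _ = ∑ p, G p := by
          refine Finset.sum_congr rfl fun p _ => ?_
          simp only [hG]
          exact Finset.sum_congr rfl fun y _ => hFsum p y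
  set Lb : ℕ := T * n ^ M + n * (n - T) ^ M + (3 * k * T ^ 2) * (M * n ^ (M - 1)) with hLb
  have hGle : ∀ p, G p ≤ Lb + (if p ∈ S then n * n ^ M else 0) := by
    intro p
    by_cases hp : p ∈ S
    · rw [if_pos hp]
      have : G p ≤ n * n ^ M := by
        simp only [hG]
        calc _ ≤ ∑ _y : Fin n, n ^ M := by
              apply Finset.sum_le_sum
              intro y _
              split_ifs
              · calc _ ≤ #(univ : Finset (Fin M → Fin n)) := Finset.card_le_card (Finset.subset_univ _)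
                  _ = n ^ M := by
                    rw [Finset.card_univ, Fintype.card_fun, Fintype.card_fin, Fintype.card_fin]
              · exact Nat.zero_le _
          _ = n * n ^ M := by
              rw [Finset.sum_const, Finset.card_univ, Fintype.card_fin, smul_eq_mul]
      omega
    · rw [if_neg hp, Nat.add_zero]
      rw [hS, Finset.mem_filter] at hp
      push Not at hp
      have hp' := hp (Finset.mem_univ _)
      rcases lt_trichotomy p.1 p.2 with hlt | heq | hgt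
      · have hK : Kp A k p.1 p.2 < T ^ k := hp'.1 hlt
        have h1 := pair_sum A M T p.1 p.2
        have h2 := opp_le A k T p.1 p.2 hK
        calc G p ≤ T * n ^ M + n * (n - T) ^ M + Opp A T p.1 p.2 * (M * n ^ (M - 1)) := h1
          _ ≤ Lb := by
            rw [hLb]
            exact Nat.add_le_add_left (Nat.mul_le_mul_right _ h2) _
      · have : G p = 0 := by
          simp only [hG]
          apply Finset.sum_eq_zero
          intro y _
          rw [if_neg]
          rw [heq]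
          intro h
          rw [h.1] at h
          exact absurd h.2 (by simp)
        rw [this]
        exact Nat.zero_le _
      · have hK : Kp A k p.2 p.1 < T ^ k := hp'.2 hgt
        have h1 := pair_sum A M T p.1 p.2
        have h2 := opp_le A k T p.2 p.1 hK
        rw [← Opp_symm] at h2
        calc G p ≤ T * n ^ M + n * (n - T) ^ M + Opp A T p.1 p.2 * (M * n ^ (M - 1)) := h1
          _ ≤ Lb := by
            rw [hLb]
            exact Nat.add_le_add_left (Nat.mul_le_mul_right _ h2) _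
  have htot : ∑ p, G p ≤ n ^ 2 * Lb + #S * (n * n ^ M) := by
    calc ∑ p, G p ≤ ∑ p : Fin n × Fin n, (Lb + (if p ∈ S then n * n ^ M else 0)) :=
          Finset.sum_le_sum fun p _ => hGle p
      _ = n ^ 2 * Lb + #S * (n * n ^ M) := by
          rw [Finset.sum_add_distrib, Finset.sum_const, Finset.card_univ, Fintype.card_prod,
            Fintype.card_fin, smul_eq_mul, Finset.sum_ite_mem, Finset.univ_inter, Finset.sum_const,
            smul_eq_mul]
          ring
  have hnR : (0 : ℝ) < n := by exact_mod_cast hn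
  have hcast : ∑ ω : Fin M → Fin n, ∑ y, (inv A (RepOf ω) y : ℝ)
      = ((∑ ω : Fin M → Fin n, ∑ y, inv A (RepOf ω) y : ℕ) : ℝ) := by
    push_cast
    rfl
  rw [hcast, hswap]
  have htotR : ((∑ p, G p : ℕ) : ℝ) ≤ (n : ℝ) ^ 2 * (Lb : ℝ) + (#S : ℝ) * ((n : ℝ) * (n : ℝ) ^ M) := by
    exact_mod_cast htot
  have hheavy : (#S : ℝ) ≤ 2 * cntX A k / (T : ℝ) ^ k := heavy_le A k T hT1
  have hpow := Vale.Agent.Lib.P037L.pow_sub_le hn M T hT
  have hMn : (M : ℝ) * (n : ℝ) ^ (M - 1) ≤ M * (n : ℝ) ^ M / n := by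
    rcases Nat.eq_zero_or_pos M with h0 | h0
    · subst h0; simp
    · have : (n : ℝ) ^ M = (n : ℝ) ^ (M - 1) * n := by
        rw [← pow_succ]
        congr 1
        omega
      rw [this]
      apply le_of_eq
      field_simp
  have hLbR : (Lb : ℝ) ≤ (T + n / (1 + M * T / n) + 3 * k * M * (T : ℝ) ^ 2 / n) * (n : ℝ) ^ M := by
    rw [hLb]
    push_cast
    have a1 : (n : ℝ) * ((n - T : ℕ) : ℝ) ^ M ≤ n * ((n : ℝ) ^ M / (1 + M * T / n)) :=
      mul_le_mul_of_nonneg_left hpow hnR.le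
    have a2 : (3 * (k : ℝ) * (T : ℝ) ^ 2) * ((M : ℝ) * (n : ℝ) ^ (M - 1))
        ≤ (3 * (k : ℝ) * (T : ℝ) ^ 2) * (M * (n : ℝ) ^ M / n) :=
      mul_le_mul_of_nonneg_left hMn (by positivity)
    have e : (T + n / (1 + M * T / n) + 3 * k * M * (T : ℝ) ^ 2 / n) * (n : ℝ) ^ M
        = T * (n : ℝ) ^ M + n * ((n : ℝ) ^ M / (1 + M * T / n))
          + (3 * (k : ℝ) * (T : ℝ) ^ 2) * (M * (n : ℝ) ^ M / n) := by
      ring
    rw [e]
    linarith
  have b1 : (n : ℝ) ^ 2 * (Lb : ℝ)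
      ≤ (n : ℝ) ^ 2 * ((T + n / (1 + M * T / n) + 3 * k * M * (T : ℝ) ^ 2 / n) * (n : ℝ) ^ M) :=
    mul_le_mul_of_nonneg_left hLbR (by positivity)
  have b2 : (#S : ℝ) * ((n : ℝ) * (n : ℝ) ^ M)
      ≤ (2 * cntX A k / (T : ℝ) ^ k) * ((n : ℝ) * (n : ℝ) ^ M) :=
    mul_le_mul_of_nonneg_right hheavy (by positivity)
  have e2 : ((n : ℝ) ^ 2 * (T + n / (1 + M * T / n) + 3 * k * M * (T : ℝ) ^ 2 / n)
        + 2 * n * cntX A k / (T : ℝ) ^ k) * (n : ℝ) ^ M
      = (n : ℝ) ^ 2 * ((T + n / (1 + M * T / n) + 3 * k * M * (T : ℝ) ^ 2 / n) * (n : ℝ) ^ M)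
        + (2 * cntX A k / (T : ℝ) ^ k) * ((n : ℝ) * (n : ℝ) ^ M) := by
    ring
  rw [e2]
  linarith

end Vale.Agent.Lib.P037X
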