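import Vale.Agent.Lib.P037X.KeyLemma
import Vale.Agent.Lib.P037X.Near

namespace Vale.Agent.Lib.P037X
open Finset
open Vale.Agent.Lib.P037L (RepOf)
variable {n : ℕ}

/-- STRUCTURE OF A VIOLATION.  Suppose `x0 ∈ Rep ∩ Wn`.  By `key_lt_iff` the tie case is impossible
(`x0` distinguishes `c,d`), so there is `x ∈ Rep`, `x < y`, showing `(0,1)`, above all sampled rows showing
`(1,0)`.  If `x0` shows `(0,1)` take it; otherwise `x0 < x` and `x ∈ Wn` by `Wn_up`. -/
theorem viol_cases (A : Fin n → Fin n → Bool) (Rep : Finset (Fin n)) (T : ℕ) (y c d : Fin n)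
    (h : key A Rep y c < key A Rep y d) :
    (∀ x ∈ Rep, x ∉ Wn A T y c d) ∨
      (∃ x ∈ Rep, x ∈ Wn A T y c d ∧ A x c = false ∧ A x d = true) := by
  by_cases hex : ∃ x0 ∈ Rep, x0 ∈ Wn A T y c d
  · right
    obtain ⟨x0, hx0, hW⟩ := hex
    have hW' := hW
    simp only [Wn, mem_filter, mem_univ, true_and] at hW'
    obtain ⟨h0y, hdiff, _⟩ := hW'
    rcases (key_lt_iff A Rep y c d).mp h with ⟨x, hx, hxy, h1, h2, h3⟩ | ⟨htie, _⟩
    · cases hc : A x0 c
      · refine ⟨x0, hx0, hW, hc, ?_⟩
        cases hd : A x0 d
        · exact absurd (hc.trans hd.symm) hdiff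
        · rfl
      · have hd : A x0 d = false := by
          cases hd : A x0 d
          · rfl
          · exact absurd (hc.trans hd.symm) hdiff
        have hlt := h3 x0 hx0 h0y hc hd
        refine ⟨x, hx, Wn_up A T y c d x0 x hW hlt hxy ?_, h1, h2⟩
        rw [h1, h2]; simp
    · exact absurd (htie x0 hx0 h0y) hdiff
  · left
    intro x hx hW
    exact hex ⟨x, hx, hW⟩

/-- `#{ω | ∃ a, ω a = x} ≤ M * n^(M-1)` (union over `a`; `{ω | ω a = x}` has `n^(M-1)` elements). -/
theorem card_hit_le (M : ℕ) (x : Fin n) :
    #{ω : Fin M → Fin n | ∃ a, ω a = x} ≤ M * n ^ (M - 1) := by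
  classical
  have hone : ∀ a : Fin M, #{ω : Fin M → Fin n | ω a = x} = n ^ (M - 1) := by
    intro a
    have e : ({ω : Fin M → Fin n | ω a = x} : Finset (Fin M → Fin n))
        = Fintype.piFinset (fun b : Fin M => if b = a then ({x} : Finset (Fin n)) else univ) := by
      ext ω
      simp only [mem_filter, mem_univ, true_and, Fintype.mem_piFinset]
      constructor
      · intro h b
        by_cases hb : b = a
        · subst hb; simp [h]
        · simp [hb]
      · intro h
        have := h a
        simpa using this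
    rw [e, Fintype.card_piFinset]
    have e2 : ∀ b : Fin M, #(if b = a then ({x} : Finset (Fin n)) else univ)
        = if b = a then 1 else n := by
      intro b
      by_cases hb : b = a <;> simp [hb]
    simp only [e2]
    rw [← mul_prod_erase univ _ (mem_univ a)]
    simp only [if_true, one_mul]
    rw [prod_congr rfl (g := fun _ => n) (fun b hb => by simp [(mem_erase.mp hb).1])]
    rw [prod_const, card_erase_of_mem (mem_univ a)]
    simp
  have hsub : ({ω : Fin M → Fin n | ∃ a, ω a = x} : Finset (Fin M → Fin n))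
      ⊆ univ.biUnion (fun a : Fin M => ({ω : Fin M → Fin n | ω a = x} : Finset _)) := by
    intro ω hω
    simp only [mem_filter, mem_univ, true_and] at hω
    obtain ⟨a, ha⟩ := hω
    simp only [mem_biUnion, mem_univ, true_and, mem_filter]
    exact ⟨a, ha⟩
  calc #{ω : Fin M → Fin n | ∃ a, ω a = x} ≤ _ := card_le_card hsub
    _ ≤ ∑ a : Fin M, #{ω : Fin M → Fin n | ω a = x} := card_biUnion_le
    _ = M * n ^ (M - 1) := by simp [hone]

/-- `viol_cases`, `P037L.card_avoid`, `card_hit_le`, union bound. -/
theorem card_viol_le (A : Fin n → Fin n → Bool) (M T : ℕ) (y c d : Fin n) :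
    #{ω : Fin M → Fin n | key A (RepOf ω) y c < key A (RepOf ω) y d} ≤
      (n - #(Wn A T y c d)) ^ M +
        #{x ∈ Wn A T y c d | A x c = false ∧ A x d = true} * (M * n ^ (M - 1)) := by
  classical
  have hsub : ({ω : Fin M → Fin n | key A (RepOf ω) y c < key A (RepOf ω) y d} : Finset _)
      ⊆ ({ω : Fin M → Fin n | ∀ a, ω a ∉ Wn A T y c d} : Finset _) ∪
        ({x ∈ Wn A T y c d | A x c = false ∧ A x d = true}).biUnion
          (fun x => ({ω : Fin M → Fin n | ∃ a, ω a = x} : Finset _)) := by
    intro ω hω
    simp only [mem_filter, mem_univ, true_and] at hω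
    rcases viol_cases A (RepOf ω) T y c d hω with h | ⟨x, hx, hW, h1, h2⟩
    · apply mem_union_left
      simp only [mem_filter, mem_univ, true_and]
      intro a
      apply h
      simp [RepOf]
    · apply mem_union_right
      simp only [mem_biUnion, mem_filter, mem_univ, true_and]
      refine ⟨x, ⟨hW, h1, h2⟩, ?_⟩
      simpa [RepOf] using hx
  calc _ ≤ _ := card_le_card hsub
    _ ≤ _ := card_union_le _ _
    _ ≤ _ := by
      rw [Vale.Agent.Lib.P037L.card_avoid]
      apply Nat.add_le_add_left
      refine le_trans card_biUnion_le ?_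
      refine le_trans (sum_le_sum fun x _ => card_hit_le M x) ?_
      simp

/-- SUM OVER THE ROWS for one ordered pair of columns.  Rows with `#Wn < T`: at most `T` (`early_Wn`),
each at most `n^M`; the others `(n-T)^M`; the second terms add up to at most `Opp * (M n^(M-1))`. -/
theorem pair_sum (A : Fin n → Fin n → Bool) (M T : ℕ) (c d : Fin n) :
    ∑ y : Fin n, (if A y c = true ∧ A y d = false then
        #{ω : Fin M → Fin n | key A (RepOf ω) y c < key A (RepOf ω) y d} else 0) ≤
      T * n ^ M + n * (n - T) ^ M + Opp A T c d * (M * n ^ (M - 1)) := by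
  classical
  set cond : Fin n → Prop := fun y => A y c = true ∧ A y d = false with hcond
  -- pointwise bound
  have hpt : ∀ y : Fin n, (if cond y then
        #{ω : Fin M → Fin n | key A (RepOf ω) y c < key A (RepOf ω) y d} else 0) ≤
      (if (A y c ≠ A y d ∧ #(Wn A T y c d) < T) then n ^ M else 0) + (n - T) ^ M +
        (if cond y then #{x ∈ Wn A T y c d | A x c = false ∧ A x d = true} else 0)
          * (M * n ^ (M - 1)) := by
    intro y
    by_cases hy : cond y
    · simp only [hy, if_true]
      have hne : A y c ≠ A y d := by rw [hy.1, hy.2]; simp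
      refine le_trans (card_viol_le A M T y c d) ?_
      apply Nat.add_le_add_right
      by_cases hT : #(Wn A T y c d) < T
      · simp only [hne, hT, ne_eq, not_false_eq_true, and_self, if_true]
        exact le_trans (Nat.pow_le_pow_left (Nat.sub_le _ _) M) (Nat.le_add_right _ _)
      · have : (n - #(Wn A T y c d)) ^ M ≤ (n - T) ^ M :=
          Nat.pow_le_pow_left (Nat.sub_le_sub_left (not_lt.mp hT) n) M
        exact le_trans this (Nat.le_add_left _ _)
    · simp only [hy, if_false]
      exact Nat.zero_le _
  refine le_trans (sum_le_sum fun y _ => hpt y) ?_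
  rw [sum_add_distrib, sum_add_distrib, ← sum_mul]
  have h1 : ∑ y : Fin n, (if (A y c ≠ A y d ∧ #(Wn A T y c d) < T) then n ^ M else 0)
      ≤ T * n ^ M := by
    rw [← sum_filter, sum_const, smul_eq_mul]
    exact Nat.mul_le_mul_right _ (early_Wn A T c d)
  have h2 : ∑ _y : Fin n, (n - T) ^ M = n * (n - T) ^ M := by simp
  have h3 : ∑ y : Fin n, (if cond y then #{x ∈ Wn A T y c d | A x c = false ∧ A x d = true} else 0)
      ≤ Opp A T c d := by
    have e : ∑ y : Fin n, (if cond y then #{x ∈ Wn A T y c d | A x c = false ∧ A x d = true} else 0)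
        = #((univ : Finset (Fin n)).sigma fun y =>
            if cond y then ({x ∈ Wn A T y c d | A x c = false ∧ A x d = true} : Finset (Fin n))
            else ∅) := by
      rw [card_sigma]
      refine sum_congr rfl fun y _ => ?_
      by_cases hy : cond y <;> simp [hy]
    rw [e]
    unfold Opp
    apply card_le_card_of_injOn (fun p : (_ : Fin n) × Fin n => (p.2, p.1))
    · intro p hp
      have hp' := mem_sigma.mp (mem_coe.mp hp)
      by_cases hy : cond p.1
      · simp only [hy, if_true, mem_filter] at hp'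
        simp only [coe_filter, mem_univ, true_and, Set.mem_setOf_eq]
        refine ⟨hp'.2.1, ?_, ?_⟩
        · rw [hy.1, hy.2]; simp
        · rw [hp'.2.2.1, hy.1]; simp
      · simp [hy] at hp'
    · intro p _ q _ hpq
      simp only [Prod.mk.injEq] at hpq
      exact Sigma.ext hpq.2 (heq_of_eq hpq.1)
  have h4 := Nat.mul_le_mul_right (M * n ^ (M - 1)) h3
  rw [h2]
  omega

end Vale.Agent.Lib.P037X
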