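import Vale.Agent.Lib.P037L.AvgU
import Vale.Agent.Lib.P037L.OneDim

/-!
# P037: the alternating patterns `X_k` (`k × 2`, rows `10, 01, 10, …`) — definitions
-/

namespace Vale.Agent.Lib.P037X

open Finset
open Vale.Agent.Lib.P037L (RepOf)

variable {n : ℕ}

/-- the symbol of the `i`-th row of the pattern: `true` (row `10`) for even `i`. -/
def sy (i : ℕ) : Bool := decide (i % 2 = 0)

/-- row `t` shows `(b, !b)` on the columns `(c,d)`. -/
def Shows (A : Fin n → Fin n → Bool) (t c d : Fin n) (b : Bool) : Prop := A t c = b ∧ A t d = !b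

instance (A : Fin n → Fin n → Bool) (t c d : Fin n) (b : Bool) : Decidable (Shows A t c d b) := by
  unfold Shows; infer_instance

/-- the rows `r` form a copy of `X_k` on the columns `(c,d)` (no condition `c < d` here). -/
def IsAlt (A : Fin n → Fin n → Bool) (k : ℕ) (r : Fin k → Fin n) (c d : Fin n) : Prop :=
  StrictMono r ∧ ∀ i, Shows A (r i) c d (sy i)

open Classical in
/-- number of copies on the columns `(c,d)`. -/
noncomputable def Kp (A : Fin n → Fin n → Bool) (k : ℕ) (c d : Fin n) : ℕ :=
  #{r : Fin k → Fin n | IsAlt A k r c d}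

/-- number of copies of `X_k`. -/
noncomputable def cntX (A : Fin n → Fin n → Bool) (k : ℕ) : ℕ :=
  ∑ c, ∑ d, if c < d then Kp A k c d else 0

/-- no copy of `X_k`. -/
def XFree (A : Fin n → Fin n → Bool) (k : ℕ) : Prop :=
  ∀ (r : Fin k → Fin n) (c d : Fin n), c < d → ¬ IsAlt A k r c d

/-- history of the column `c` at time `y`: sampled rows above `y` with a one in column `c`. -/
def Hist (A : Fin n → Fin n → Bool) (Rep : Finset (Fin n)) (y c : Fin n) : Finset (Fin n) :=
  {x ∈ Rep | x < y ∧ A x c = true}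

/-- the key of a column: history in colex order (the LAST difference decides), ties by index. -/
def key (A : Fin n → Fin n → Bool) (Rep : Finset (Fin n)) (y c : Fin n) :
    Colex (Finset (Fin n)) ×ₗ Fin n :=
  toLex (toColex (Hist A Rep y c), c)

/-- `ρ` is an up-set of the linear order given by `key`. -/
def Mon (A : Fin n → Fin n → Bool) (Rep : Finset (Fin n)) (y : Fin n) (ρ : Fin n → Bool) : Prop :=
  ∀ c d, key A Rep y c < key A Rep y d → ρ c = true → ρ d = true

/-- inversions of row `y` of `A`. -/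
def inv (A : Fin n → Fin n → Bool) (Rep : Finset (Fin n)) (y : Fin n) : ℕ :=
  #{p : Fin n × Fin n | key A Rep y p.1 < key A Rep y p.2 ∧ A y p.1 = true ∧ A y p.2 = false}

/-- the new matrix: erased columns are `0`, sampled rows are kept, the other rows are `R y`. -/
def buildX (A : Fin n → Fin n → Bool) (Rep Z : Finset (Fin n)) (R : Fin n → Fin n → Bool) :
    Fin n → Fin n → Bool :=
  fun y c => if c ∈ Z then false else if y ∈ Rep then A y c else R y c

/-- columns showing the first / the second column of the pattern on the rows `r`. -/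
def PX (A : Fin n → Fin n → Bool) (k : ℕ) (r : Fin k → Fin n) : Finset (Fin n) :=
  {c | ∀ i, A (r i) c = sy i}

def QX (A : Fin n → Fin n → Bool) (k : ℕ) (r : Fin k → Fin n) : Finset (Fin n) :=
  {d | ∀ i, A (r i) d = !sy i}

open Classical in
/-- threshold for the tuple `r`. -/
noncomputable def tauX (A : Fin n → Fin n → Bool) (k κ : ℕ) (r : Fin k → Fin n) : ℕ :=
  if h : ∃ τ : ℕ, #((PX A k r).filter fun c : Fin n => (c : ℕ) < τ) ≤ κ ∧
      #((QX A k r).filter fun d : Fin n => τ ≤ (d : ℕ)) ≤ κ then h.choose else 0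

open Classical in
/-- erased columns. -/
noncomputable def ZX (A : Fin n → Fin n → Bool) (k κ : ℕ) (Rep : Finset (Fin n)) : Finset (Fin n) :=
  (Fintype.piFinset fun _ : Fin k => Rep).biUnion fun r =>
    if StrictMono r then
      ((PX A k r).filter fun c : Fin n => (c : ℕ) < tauX A k κ r) ∪
      ((QX A k r).filter fun d : Fin n => tauX A k κ r ≤ (d : ℕ))
    else ∅

open Classical in
/-- copies inside the sample (counted with the indices of the sample). -/
noncomputable def PPX {M : ℕ} (A : Fin n → Fin n → Bool) (k : ℕ) (ω : Fin M → Fin n) : ℕ :=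
  ∑ a : Fin k → Fin M, #{p : Fin n × Fin n | p.1 < p.2 ∧ IsAlt A k (ω ∘ a) p.1 p.2}

/-- the (at most) `T` nearest rows above `y` in which the columns `c,d` differ. -/
def Wn (A : Fin n → Fin n → Bool) (T : ℕ) (y c d : Fin n) : Finset (Fin n) :=
  {t | t < y ∧ A t c ≠ A t d ∧ #{t' : Fin n | t < t' ∧ t' < y ∧ A t' c ≠ A t' d} < T}

/-- pairs of rows `x' < y` with opposite symbols on `(c,d)` and fewer than `T` differing rows
between them. -/
def Opp (A : Fin n → Fin n → Bool) (T : ℕ) (c d : Fin n) : ℕ :=
  #{p : Fin n × Fin n | p.1 ∈ Wn A T p.2 c d ∧ A p.2 c ≠ A p.2 d ∧ A p.1 c ≠ A p.2 c}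

end Vale.Agent.Lib.P037X
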